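import Vale.Agent.P299.H340.Model.Mod

/-!
# P299, the model of the open variety: holomorphic functions of polynomial growth are algebraic
-/

set_option autoImplicit false
set_option linter.unusedSectionVars false

open MeasureTheory Filter Topology
open scoped ENNReal NNReal ComplexConjugate

namespace Vale.Agent.P299.H340

open Vale.Agent
open Vale.Agent.P282.L2 (Pol Prim pev IB IsPartials)

variable {n : ℕ} {K : Type} [Field K] [Algebra ℂ K] [Algebra (Pol n) K]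
  [IsScalarTower ℂ (Pol n) K] [FaithfulSMul (Pol n) K]

namespace Mod

variable {A : Mod n K}

/-- The function with given coefficients. -/
theorem exists_of_coeff {F : (Fin n → ℂ) × ℕ → ℂ} {g : Fin A.N → (Fin n → ℂ) → ℂ}
    (hF : ∀ q ∈ A.S.M, F q = ∑ i, g i q.1 * (A.link.pt q).2 ^ (i : ℕ))
    (hg : ∀ i, ∃ (P : Pol n) (l : ℕ), ∀ z ∈ A.S.V,
      g i z * MvPolynomial.eval z A.E.h ^ l = MvPolynomial.eval z P) :
    ∃ a, A.IsReg a ∧ ∀ q ∈ A.S.M, F q = A.val a q := by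
  choose P l hP using hg
  have hreg : ∀ i : Fin A.N, A.IsReg (algebraMap (Pol n) K (P i) *
      (algebraMap (Pol n) K A.E.h)⁻¹ ^ (l i) * A.E.y ^ (i : ℕ)) := fun i =>
    ((isReg_alg _).mul (isReg_h_inv.pow _)).mul (isReg_y.pow _)
  refine ⟨∑ i, algebraMap (Pol n) K (P i) * (algebraMap (Pol n) K A.E.h)⁻¹ ^ (l i) *
    A.E.y ^ (i : ℕ), IsReg.sum _ fun i _ => hreg i, fun q hq => ?_⟩
  rw [val_sum hq _ fun i _ => hreg i, hF q hq]
  refine Finset.sum_congr rfl fun i _ => ?_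
  have hh : MvPolynomial.eval q.1 A.E.h ≠ 0 := A.mem_V.1 hq.1
  rw [val_mul hq ((isReg_alg _).mul (isReg_h_inv.pow _)) (isReg_y.pow _),
    val_mul hq (isReg_alg _) (isReg_h_inv.pow _), val_pow hq isReg_y, val_pow hq isReg_h_inv,
    val_inv hq (isReg_alg _) isReg_h_inv, val_alg hq, val_alg hq, val_y hq, ← hP i q.1 hq.1,
    inv_pow, mul_inv_cancel_right₀ (pow_ne_zero _ hh)]

section dual

variable [Algebra (FractionRing (Pol n)) K] [IsScalarTower (Pol n) (FractionRing (Pol n)) K]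
  [FiniteDimensional (FractionRing (Pol n)) K]

/-- The dual basis. -/
theorem exists_dual (A : Mod n K) : ∃ c : Fin A.N → K, (∀ i, A.IsReg (c i)) ∧
    (∀ z ∈ A.S.V, ∀ w ∈ A.S.fib z, ∀ w' ∈ A.S.fib z,
      ∑ i : Fin A.N, A.val (c i) (z, w') * (A.link.pt (z, w)).2 ^ (i : ℕ) =
        if w = w' then 1 else 0) := by
  obtain ⟨c, hc, -, -, -, h, -⟩ := Du.exists_dual_basis A.sh
  refine ⟨c, hc, fun z hz w hw w' hw' => ?_⟩
  have hq : (z, w) ∈ A.S.M := ⟨hz, hw⟩
  have hq' : (z, w') ∈ A.S.M := ⟨hz, hw'⟩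
  have h1 := A.link.pt_mem _ hq
  have h2 := A.link.pt_mem _ hq'
  have e1 : (A.link.pt (z, w)).1 = z := A.link.pt_fst _ hq
  have e2 : (A.link.pt (z, w')).1 = z := A.link.pt_fst _ hq'
  have h3 := h z (A.link.V_eq.subset hz) (A.link.pt (z, w)).2 (by
      have := h1.2
      rw [e1] at this
      exact this) (A.link.pt (z, w')).2 (by
      have := h2.2
      rw [e2] at this
      exact this)
  have e3 : (z, (A.link.pt (z, w')).2) = A.link.pt (z, w') := Prod.ext e2.symm rfl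
  rw [e3] at h3
  show ∑ i : Fin A.N, A.E.ev (c i) (A.link.pt (z, w')) * (A.link.pt (z, w)).2 ^ (i : ℕ) = _
  rw [h3]
  by_cases hww : w = w'
  · rw [if_pos hww, if_pos (by rw [hww])]
  · rw [if_neg hww, if_neg]
    intro h4
    apply hww
    have h5 : A.link.pt (z, w) = A.link.pt (z, w') := Prod.ext (e1.trans e2.symm) h4
    exact congrArg Prod.snd (A.link.pt_injOn hq hq' h5)

/-- The trace reproducing formula. -/
theorem exists_dual_fsum (A : Mod n K) : ∃ c : Fin A.N → K, (∀ i, A.IsReg (c i)) ∧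
    ∀ (F : (Fin n → ℂ) × ℕ → ℂ), ∀ q ∈ A.S.M, F q =
      ∑ i : Fin A.N, A.S.fsum (fun q' => A.val (c i) q' * F q') q.1 *
        (A.link.pt q).2 ^ (i : ℕ) := by
  classical
  obtain ⟨c, hc, h⟩ := A.exists_dual
  refine ⟨c, hc, fun F q hq => ?_⟩
  unfold P300.L2.Sheets.fsum
  simp_rw [Finset.sum_mul]
  rw [Finset.sum_comm]
  have h1 : ∀ w' ∈ A.S.fib q.1, ∑ i : Fin A.N, A.val (c i) (q.1, w') * F (q.1, w') *
      (A.link.pt q).2 ^ (i : ℕ) = if q.2 = w' then F (q.1, w') else 0 := by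
    intro w' hw'
    have h2 := h q.1 hq.1 q.2 hq.2 w' hw'
    calc ∑ i : Fin A.N, A.val (c i) (q.1, w') * F (q.1, w') * (A.link.pt q).2 ^ (i : ℕ)
        = (∑ i : Fin A.N, A.val (c i) (q.1, w') * (A.link.pt (q.1, q.2)).2 ^ (i : ℕ)) *
            F (q.1, w') := by
          rw [Finset.sum_mul]
          refine Finset.sum_congr rfl fun i _ => ?_
          ring
      _ = _ := by rw [h2]; split_ifs <;> simp
  rw [Finset.sum_congr rfl h1, Finset.sum_ite_eq, if_pos hq.2]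

theorem exists_val_of_growth (A : Mod n K) {F : (Fin n → ℂ) × ℕ → ℂ} (hF : A.S.Holo F) {c : ℝ}
    {k : ℕ} (hb : ∀ q ∈ A.S.M, ‖F q‖ ≤ c * (1 + A.p q.1) ^ k) :
    ∃ a, A.IsReg a ∧ ∀ q ∈ A.S.M, F q = A.val a q := by
  obtain ⟨e, he, hrep⟩ := A.exists_dual_fsum
  refine exists_of_coeff (g := fun i => A.S.fsum (fun q' => A.val (e i) q' * F q'))
    (fun q hq => hrep F q hq) fun i => ?_
  obtain ⟨c', k', hc', hb'⟩ := growth (he i)
  have hV : A.S.V = {z | MvPolynomial.eval z A.E.h ≠ 0} := by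
    ext z
    exact A.mem_V
  have hd : DifferentiableOn ℂ (A.S.fsum (fun q' => A.val (e i) q' * F q')) A.S.V :=
    P300.L2.Sheets.differentiableOn_fsum ((holo_val (he i)).mul hF)
  rw [hV] at hd
  obtain ⟨P, l, hP⟩ := exists_poly_of_growth A.E.h0 (c := A.N * (c' * c)) (k := k' + k) hd
    (fun z hz => by
      have hzV : z ∈ A.S.V := by rw [hV]; exact hz
      unfold P300.L2.Sheets.fsum
      refine (norm_sum_le _ _).trans ?_
      calc ∑ w ∈ A.S.fib z, ‖A.val (e i) (z, w) * F (z, w)‖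
          ≤ ∑ _w ∈ A.S.fib z, c' * (1 + A.p z) ^ k' * (c * (1 + A.p z) ^ k) := by
            refine Finset.sum_le_sum fun w hw => ?_
            rw [norm_mul]
            have h0 := A.p_nonneg z
            exact mul_le_mul (hb' (z, w) ⟨hzV, hw⟩) (hb (z, w) ⟨hzV, hw⟩) (norm_nonneg _)
              (by positivity)
        _ = _ := by
            rw [Finset.sum_const, P300.L2.Sheets.card_fib hzV, nsmul_eq_mul]
            show _ = A.N * (c' * c) * (1 + A.p z) ^ (k' + k)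
            ring)
  exact ⟨P, l, fun z hz => hP z (by rw [hV] at hz; exact hz)⟩

theorem exists_val_of_bounded (A : Mod n K) {F : (Fin n → ℂ) × ℕ → ℂ} (hF : A.S.Holo F) {c : ℝ}
    (hb : ∀ q ∈ A.S.M, ‖F q‖ ≤ c) : ∃ a, A.IsReg a ∧ ∀ q ∈ A.S.M, F q = A.val a q :=
  A.exists_val_of_growth hF (c := c) (k := 0) fun q hq => by simpa using hb q hq

theorem exists_val_of_L2 (A : Mod n K) {F : (Fin n → ℂ) × ℕ → ℂ} (hF : A.S.Holo F) {k : ℕ}
    (hI : ∫⁻ q, ENNReal.ofReal (‖F q‖ ^ 2 * ((1 + A.p q.1) ^ k)⁻¹) ∂A.S.μ < ⊤) :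
    ∃ a, A.IsReg a ∧ ∀ q ∈ A.S.M, F q = A.val a q := by
  obtain ⟨e, he, hrep⟩ := A.exists_dual_fsum
  refine exists_of_coeff (g := fun i => A.S.fsum (fun q' => A.val (e i) q' * F q'))
    (fun q hq => hrep F q hq) fun i => ?_
  obtain ⟨c', k', hc', hb'⟩ := growth (he i)
  have hV : A.S.V = {z | MvPolynomial.eval z A.E.h ≠ 0} := by
    ext z
    exact A.mem_V
  have hd : DifferentiableOn ℂ (A.S.fsum (fun q' => A.val (e i) q' * F q')) A.S.V :=
    P300.L2.Sheets.differentiableOn_fsum ((holo_val (he i)).mul hF)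
  rw [hV] at hd
  have hmeas : AEMeasurable (fun q : (Fin n → ℂ) × ℕ =>
      ENNReal.ofReal (‖F q‖ ^ 2 * ((1 + A.p q.1) ^ k)⁻¹)) A.S.μ := by
    have h1 : AEMeasurable F A.S.μ :=
      (P300.L2.Sheets.aestronglyMeasurable_of_CD (hF.CD 0)).aemeasurable
    obtain ⟨C, k0, hp⟩ := A.exh
    have h2 : AEMeasurable (fun q : (Fin n → ℂ) × ℕ => ((A.p q.1 : ℝ) : ℂ)) A.S.μ := by
      have h3 : A.S.CD 0 (fun q : (Fin n → ℂ) × ℕ => ((A.p q.1 : ℝ) : ℂ)) := by
        refine P300.L2.Sheets.CD.fst (S := A.S) (f := fun z => ((A.p z : ℝ) : ℂ)) ?_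
        have h4 : ContDiffOn ℝ 0 A.p A.S.V := hp.smooth.of_le (by norm_num)
        exact Complex.ofRealCLM.contDiff.comp_contDiffOn h4
      exact (P300.L2.Sheets.aestronglyMeasurable_of_CD h3).aemeasurable
    have h5 : AEMeasurable (fun q : (Fin n → ℂ) × ℕ => A.p q.1) A.S.μ := by
      have := Complex.measurable_re.comp_aemeasurable h2
      simpa [Function.comp_def] using this
    exact ((h1.norm.pow_const 2).mul ((h5.const_add 1).pow_const k).inv).ennreal_ofReal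
  obtain ⟨P, hP⟩ := exists_poly_of_L2 A.E.h0 (k := 2 * k' + k) hd (by
    rw [P300.L2.Sheets.lintegral_μ' hmeas] at hI
    have hb : ∀ z ∈ {z | MvPolynomial.eval z A.E.h ≠ 0},
        ENNReal.ofReal (‖A.S.fsum (fun q' => A.val (e i) q' * F q') z‖ ^ 2 *
          ((1 + P282.L2.ExhAux.ex A.E.h z) ^ (2 * k' + k))⁻¹) ≤
        ENNReal.ofReal (A.N * c' ^ 2) * ∑ w ∈ A.S.fib z,
          ENNReal.ofReal (‖F (z, w)‖ ^ 2 * ((1 + A.p z) ^ k)⁻¹) := by
      intro z hz
      have hzV : z ∈ A.S.V := by rw [hV]; exact hz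
      have h0 := A.p_nonneg z
      rw [← ENNReal.ofReal_sum_of_nonneg (fun w _ => by positivity),
        ← ENNReal.ofReal_mul (by positivity)]
      refine ENNReal.ofReal_le_ofReal ?_
      have h1 : ‖A.S.fsum (fun q' => A.val (e i) q' * F q') z‖ ^ 2 ≤
          A.N * (c' ^ 2 * (1 + A.p z) ^ (2 * k') * ∑ w ∈ A.S.fib z, ‖F (z, w)‖ ^ 2) := by
        unfold P300.L2.Sheets.fsum
        calc ‖∑ w ∈ A.S.fib z, A.val (e i) (z, w) * F (z, w)‖ ^ 2
            ≤ (∑ w ∈ A.S.fib z, ‖A.val (e i) (z, w) * F (z, w)‖) ^ 2 :=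
              pow_le_pow_left₀ (norm_nonneg _) (norm_sum_le _ _) 2
          _ ≤ (A.S.fib z).card * ∑ w ∈ A.S.fib z, ‖A.val (e i) (z, w) * F (z, w)‖ ^ 2 :=
              sq_sum_le_card_mul_sum_sq
          _ ≤ A.N * ∑ w ∈ A.S.fib z, c' ^ 2 * (1 + A.p z) ^ (2 * k') * ‖F (z, w)‖ ^ 2 := by
              rw [P300.L2.Sheets.card_fib hzV]
              refine mul_le_mul_of_nonneg_left (Finset.sum_le_sum fun w hw => ?_)
                (Nat.cast_nonneg _)
              rw [norm_mul, mul_pow]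
              refine mul_le_mul_of_nonneg_right ?_ (by positivity)
              calc ‖A.val (e i) (z, w)‖ ^ 2 ≤ (c' * (1 + A.p z) ^ k') ^ 2 :=
                    pow_le_pow_left₀ (norm_nonneg _) (hb' (z, w) ⟨hzV, hw⟩) 2
                _ = _ := by ring
          _ = _ := by rw [← Finset.mul_sum]
      show ‖A.S.fsum (fun q' => A.val (e i) q' * F q') z‖ ^ 2 *
        ((1 + A.p z) ^ (2 * k' + k))⁻¹ ≤ _
      calc _ ≤ A.N * (c' ^ 2 * (1 + A.p z) ^ (2 * k') * ∑ w ∈ A.S.fib z, ‖F (z, w)‖ ^ 2) *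
            ((1 + A.p z) ^ (2 * k' + k))⁻¹ := by gcongr
        _ = _ := by
            rw [← Finset.sum_mul, pow_add, mul_inv]
            have h2 : (1 + A.p z) ^ (2 * k') ≠ 0 := by positivity
            calc _ = A.N * (c' ^ 2 * ((1 + A.p z) ^ (2 * k') * ((1 + A.p z) ^ (2 * k'))⁻¹) *
                  ∑ w ∈ A.S.fib z, ‖F (z, w)‖ ^ 2) * ((1 + A.p z) ^ k)⁻¹ := by ring
              _ = _ := by rw [mul_inv_cancel₀ h2]; ring
    refine (setLIntegral_mono_ae' (isOpen_zero _).measurableSet (ae_of_all _ hb)).trans_lt ?_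
    rw [lintegral_const_mul' _ _ ENNReal.ofReal_ne_top, ← hV]
    exact ENNReal.mul_lt_top ENNReal.ofReal_lt_top hI)
  exact ⟨P, _, fun z hz => hP z (by rw [hV] at hz; exact hz)⟩

/-- Bounded holomorphic functions on covers with labels in `ℂ`. -/
theorem _root_.Vale.Agent.P299.H340.ev_of_bounded {N : ℕ} {E : Prim n K}
    {S : P282.L2.Sheets n N} (hS : E.IsSheets S) {F : (Fin n → ℂ) × ℂ → ℂ} (hF : S.Holo F) {c : ℝ}
    (hb : ∀ q ∈ S.M, ‖F q‖ ≤ c) : ∃ a, E.IsReg a ∧ ∀ q ∈ S.M, F q = E.ev a q := by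
  set A : Mod n K := Mod.mk' E S hS with hA
  obtain ⟨a, ha, h⟩ := A.exists_val_of_bounded (F := fun q => F (A.link.pt q)) (c := c)
    (A.link.holo_pt hF) (fun q hq => hb _ (A.link.pt_mem q hq))
  refine ⟨a, ha, fun q hq => ?_⟩
  have h1 := h (A.link.qt q) (A.link.qt_mem q hq)
  simp only [Mod.val] at h1
  rw [A.link.pt_qt q hq] at h1
  exact h1

end dual

end Mod

end Vale.Agent.P299.H340
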