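import Vale.Agent.P299.H340.Model.Alg

/-!
# P299, the model of the open variety: algebra of the base

`K₀ ⊆ K`, with coordinates `z' = z ∘ ι` of `K₀` among the coordinates `z` of `K`.
-/

set_option autoImplicit false
set_option linter.unusedSectionVars false
set_option linter.style.haveILetI false

open MeasureTheory Filter Topology MvPolynomial
open scoped ENNReal NNReal ComplexConjugate

namespace Vale.Agent.P299.H340

open Vale.Agent
open Vale.Agent.P282.L2 (Pol Prim pev IB IsPartials)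

variable {n k : ℕ} {K₀ K : Type} [Field K₀] [Field K] [Algebra ℂ K₀] [Algebra ℂ K]
  [Algebra (Pol k) K₀] [Algebra (Pol n) K] [IsScalarTower ℂ (Pol k) K₀]
  [IsScalarTower ℂ (Pol n) K] [Algebra K₀ K] [IsScalarTower ℂ K₀ K]

/-- The coordinates of the base. -/
def Var (ι : Fin k ↪ Fin n) (K₀ K : Type) [Field K₀] [Field K] [Algebra (Pol k) K₀]
    [Algebra (Pol n) K] [Algebra K₀ K] : Prop :=
  ∀ i, algebraMap K₀ K (algebraMap (Pol k) K₀ (X i)) = algebraMap (Pol n) K (X (ι i))

variable {ι : Fin k ↪ Fin n}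

theorem Var.map_alg (hv : Var ι K₀ K) (f : Pol k) :
    algebraMap K₀ K (algebraMap (Pol k) K₀ f) = algebraMap (Pol n) K (rename ι f) := by
  have : ((algebraMap K₀ K).comp (algebraMap (Pol k) K₀)) =
      (algebraMap (Pol n) K).comp (rename ι : Pol k →ₐ[ℂ] Pol n).toRingHom := by
    refine MvPolynomial.ringHom_ext (fun c => ?_) (fun i => ?_)
    · have h1 : (algebraMap (Pol k) K₀) (C c) = algebraMap ℂ K₀ c := by
        rw [IsScalarTower.algebraMap_apply ℂ (Pol k) K₀ c]
        rfl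
      have h2 : (algebraMap (Pol n) K) (C c) = algebraMap ℂ K c := by
        rw [IsScalarTower.algebraMap_apply ℂ (Pol n) K c]
        rfl
      simp only [RingHom.comp_apply, AlgHom.toRingHom_eq_coe, RingHom.coe_coe, rename_C]
      rw [h1, h2, IsScalarTower.algebraMap_apply ℂ K₀ K c]
    · simp only [RingHom.comp_apply, AlgHom.toRingHom_eq_coe, RingHom.coe_coe, rename_X]
      exact hv i
  exact congrArg (fun g : Pol k →+* K => g f) this

theorem Var.isIntegral (hv : Var ι K₀ K) {b : K₀} (hb : IsIntegral (Pol k) b) :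
    IsIntegral (Pol n) (algebraMap K₀ K b) := by
  refine hb.map_of_comp_eq (rename ι : Pol k →ₐ[ℂ] Pol n).toRingHom (algebraMap K₀ K) ?_
  refine RingHom.ext fun f => ?_
  exact (hv.map_alg f).symm

/-! ### Specialisation of the other variables -/

/-- Setting the variables which are not in the base equal to constants. -/
noncomputable def spec (ι : Fin k ↪ Fin n) (a : Fin n → ℂ) : Pol n →ₐ[ℂ] Pol k := by
  classical
  exact aeval (fun j => if h : j ∈ Set.range ι then X h.choose else C (a j))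

/-- The point with coordinates `z'` and `a`. -/
noncomputable def glue (ι : Fin k ↪ Fin n) (a : Fin n → ℂ) (z' : Fin k → ℂ) : Fin n → ℂ := by
  classical
  exact fun j => if h : j ∈ Set.range ι then z' h.choose else a j

theorem glue_comp (a : Fin n → ℂ) (z' : Fin k → ℂ) : glue ι a z' ∘ ι = z' := by
  classical
  funext i
  have h : ι i ∈ Set.range ι := ⟨i, rfl⟩
  simp only [Function.comp_apply, glue]
  rw [dif_pos h, ι.injective h.choose_spec]

theorem glue_apply (a : Fin n → ℂ) (z' : Fin k → ℂ) (i : Fin k) : glue ι a z' (ι i) = z' i :=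
  congrFun (glue_comp a z') i

theorem glue_of_notMem (a : Fin n → ℂ) (z' : Fin k → ℂ) {j : Fin n} (hj : j ∉ Set.range ι) :
    glue ι a z' j = a j := by
  classical
  simp only [glue]
  rw [dif_neg hj]

theorem spec_X (a : Fin n → ℂ) (i : Fin k) : spec ι a (X (ι i)) = X i := by
  classical
  have h : ι i ∈ Set.range ι := ⟨i, rfl⟩
  rw [spec, aeval_X, dif_pos h, ι.injective h.choose_spec]

theorem spec_X_of_notMem (a : Fin n → ℂ) {j : Fin n} (hj : j ∉ Set.range ι) :
    spec ι a (X j) = C (a j) := by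
  classical
  rw [spec, aeval_X, dif_neg hj]

theorem spec_rename (a : Fin n → ℂ) (g : Pol k) : spec ι a (rename ι g) = g := by
  have : (spec ι a).comp (rename ι) = AlgHom.id ℂ (Pol k) := by
    refine MvPolynomial.algHom_ext fun i => ?_
    rw [AlgHom.comp_apply, rename_X, spec_X]
    rfl
  exact congrArg (fun g' : Pol k →ₐ[ℂ] Pol k => g' g) this

theorem eval_spec (a : Fin n → ℂ) (z' : Fin k → ℂ) (f : Pol n) :
    eval z' (spec ι a f) = eval (glue ι a z') f := by
  have : (eval z').comp (spec ι a).toRingHom = eval (glue ι a z') := by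
    refine MvPolynomial.ringHom_ext (fun c => ?_) (fun j => ?_)
    · simp only [RingHom.comp_apply, AlgHom.toRingHom_eq_coe, RingHom.coe_coe, eval_C]
      rw [← MvPolynomial.algebraMap_eq, AlgHom.commutes, MvPolynomial.algebraMap_eq, eval_C]
    · simp only [RingHom.comp_apply, AlgHom.toRingHom_eq_coe, RingHom.coe_coe, eval_X]
      by_cases hj : j ∈ Set.range ι
      · obtain ⟨i, rfl⟩ := hj
        rw [spec_X, eval_X, glue_apply]
      · rw [spec_X_of_notMem a hj, eval_C, glue_of_notMem a z' hj]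
  exact congrArg (fun g : Pol n →+* ℂ => g f) this

theorem eval_rename (g : Pol k) (z : Fin n → ℂ) : eval z (rename ι g) = eval (z ∘ ι) g :=
  MvPolynomial.eval_rename _ _ _

theorem exists_spec_ne_zero (ι : Fin k ↪ Fin n) {h : Pol n} (h0 : h ≠ 0) :
    ∃ a, spec ι a h ≠ 0 := by
  by_contra hc
  push Not at hc
  apply h0
  apply MvPolynomial.funext
  intro z
  have h1 := eval_spec (ι := ι) z (z ∘ ι) h
  rw [hc z, map_zero] at h1
  have h2 : glue ι z (z ∘ ι) = z := by
    funext j
    by_cases hj : j ∈ Set.range ι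
    · obtain ⟨i, rfl⟩ := hj
      rw [glue_apply]
      rfl
    · rw [glue_of_notMem _ _ hj]
  rw [h2] at h1
  rw [← h1, map_zero]

/-- The variables which are not in the base. -/
abbrev Oth (ι : Fin k ↪ Fin n) : Type := ((Set.range ι)ᶜ : Set (Fin n))

/-- The map to `K`. -/
noncomputable def em (ι : Fin k ↪ Fin n) (K₀ K : Type) [Field K₀] [Field K]
    [Algebra (Pol n) K] [Algebra K₀ K] : MvPolynomial (Oth ι) K₀ →ₐ[K₀] K :=
  aeval (fun j : Oth ι => algebraMap (Pol n) K (X j.1))

/-- Polynomials in `z` as polynomials in `z''` over `K₀`. -/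
noncomputable def uu (ι : Fin k ↪ Fin n) (K₀ : Type) [Field K₀] [Algebra ℂ K₀]
    [Algebra (Pol k) K₀] : Pol n →ₐ[ℂ] MvPolynomial (Oth ι) K₀ := by
  classical
  exact aeval (fun j => if h : j ∈ Set.range ι then C (algebraMap (Pol k) K₀ (X h.choose))
    else X ⟨j, h⟩)

/-- Specialisation. -/
noncomputable def sp (ι : Fin k ↪ Fin n) (K₀ : Type) [Field K₀] [Algebra ℂ K₀] (a : Fin n → ℂ) :
    MvPolynomial (Oth ι) K₀ →ₐ[K₀] K₀ :=
  aeval (fun j : Oth ι => algebraMap ℂ K₀ (a j.1))

theorem uu_X (i : Fin k) : uu ι K₀ (X (ι i)) = C (algebraMap (Pol k) K₀ (X i)) := by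
  classical
  have h : ι i ∈ Set.range ι := ⟨i, rfl⟩
  rw [uu, aeval_X, dif_pos h, ι.injective h.choose_spec]

theorem uu_X_of_notMem {j : Fin n} (hj : j ∉ Set.range ι) : uu ι K₀ (X j) = X ⟨j, hj⟩ := by
  classical
  rw [uu, aeval_X, dif_neg hj]

theorem em_uu (hv : Var ι K₀ K) (f : Pol n) : em ι K₀ K (uu ι K₀ f) = algebraMap (Pol n) K f := by
  have : (em ι K₀ K).toRingHom.comp (uu ι K₀).toRingHom = algebraMap (Pol n) K := by
    refine MvPolynomial.ringHom_ext (fun c => ?_) (fun j => ?_)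
    · have h2 : (algebraMap (Pol n) K) (C c) = algebraMap ℂ K c := by
        rw [IsScalarTower.algebraMap_apply ℂ (Pol n) K c]
        rfl
      simp only [RingHom.comp_apply, AlgHom.toRingHom_eq_coe, RingHom.coe_coe]
      rw [h2, ← MvPolynomial.algebraMap_eq, AlgHom.commutes,
        IsScalarTower.algebraMap_apply ℂ K₀ (MvPolynomial (Oth ι) K₀), AlgHom.commutes,
        ← IsScalarTower.algebraMap_apply ℂ K₀ K]
    · simp only [RingHom.comp_apply, AlgHom.toRingHom_eq_coe, RingHom.coe_coe]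
      by_cases hj : j ∈ Set.range ι
      · obtain ⟨i, rfl⟩ := hj
        rw [uu_X, ← MvPolynomial.algebraMap_eq, AlgHom.commutes, hv i]
      · rw [uu_X_of_notMem hj, em, aeval_X]
  exact congrArg (fun g : Pol n →+* K => g f) this

theorem sp_uu (a : Fin n → ℂ) (f : Pol n) :
    sp ι K₀ a (uu ι K₀ f) = algebraMap (Pol k) K₀ (spec ι a f) := by
  have : (sp ι K₀ a).toRingHom.comp (uu ι K₀).toRingHom =
      (algebraMap (Pol k) K₀).comp (spec ι a).toRingHom := by
    refine MvPolynomial.ringHom_ext (fun c => ?_) (fun j => ?_)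
    · simp only [RingHom.comp_apply, AlgHom.toRingHom_eq_coe, RingHom.coe_coe]
      rw [← MvPolynomial.algebraMap_eq, AlgHom.commutes, AlgHom.commutes,
        IsScalarTower.algebraMap_apply ℂ K₀ (MvPolynomial (Oth ι) K₀), AlgHom.commutes,
        ← IsScalarTower.algebraMap_apply ℂ (Pol k) K₀]
      rfl
    · simp only [RingHom.comp_apply, AlgHom.toRingHom_eq_coe, RingHom.coe_coe]
      by_cases hj : j ∈ Set.range ι
      · obtain ⟨i, rfl⟩ := hj
        rw [uu_X, ← MvPolynomial.algebraMap_eq, AlgHom.commutes, spec_X]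
        rfl
      · rw [uu_X_of_notMem hj, sp, aeval_X, spec_X_of_notMem a hj,
          IsScalarTower.algebraMap_apply ℂ (Pol k) K₀]
        rfl
  exact congrArg (fun g : Pol n →+* K₀ => g f) this

/-! ### Algebraic independence over `K₀` -/

theorem isAlgebraic_of_prim (E : Prim k K₀) [FaithfulSMul (Pol k) K₀] :
    Algebra.IsAlgebraic (Pol k) K₀ := by
  refine ⟨fun a => ?_⟩
  obtain ⟨f, c, hc, h⟩ := E.gen a
  have h1 : IsIntegral (Pol k) (Polynomial.aeval E.y f) :=
    adjoin_le_integralClosure E.integral (Polynomial.aeval_mem_adjoin_singleton _ _)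
  have hc' : algebraMap (Pol k) K₀ c ≠ 0 := by
    rw [Ne, FaithfulSMul.algebraMap_eq_zero_iff]
    exact hc
  have h2 : a = (algebraMap (Pol k) K₀ c)⁻¹ * Polynomial.aeval E.y f := by
    rw [← h, inv_mul_cancel_left₀ hc']
  rw [h2]
  exact ((isAlgebraic_algebraMap c).inv).mul h1.isAlgebraic

theorem indep_C (n : ℕ) (K : Type) [Field K] [Algebra ℂ K] [Algebra (Pol n) K]
    [IsScalarTower ℂ (Pol n) K] [FaithfulSMul (Pol n) K] :
    AlgebraicIndependent ℂ (fun j : Fin n => algebraMap (Pol n) K (X j)) := by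
  have h1 : (aeval (fun j : Fin n => algebraMap (Pol n) K (X j)) : Pol n →ₐ[ℂ] K) =
      IsScalarTower.toAlgHom ℂ (Pol n) K := by
    refine MvPolynomial.algHom_ext fun i => ?_
    rw [aeval_X]
    rfl
  rw [AlgebraicIndependent, h1]
  exact FaithfulSMul.algebraMap_injective (Pol n) K

theorem indep [FaithfulSMul (Pol n) K] [FaithfulSMul (Pol k) K₀] [Algebra.IsAlgebraic (Pol k) K₀]
    (hv : Var ι K₀ K) :
    AlgebraicIndependent K₀ (fun j : Oth ι => algebraMap (Pol n) K (X j.1)) := by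
  set x : Fin n → K := fun j => algebraMap (Pol n) K (X j) with hx
  have h1 := ((AlgebraicIndependent.iff_adjoin_image (Set.range ι)).1 (indep_C n K)).2
  set Rx := Algebra.adjoin ℂ (x '' Set.range ι) with hRx
  let e := AlgEquiv.ofInjective (IsScalarTower.toAlgHom ℂ K₀ K) (algebraMap K₀ K).injective
  have hle : Rx ≤ (IsScalarTower.toAlgHom ℂ K₀ K).range := by
    refine Algebra.adjoin_le ?_
    rintro _ ⟨_, ⟨i, rfl⟩, rfl⟩
    exact ⟨algebraMap (Pol k) K₀ (X i), hv i⟩
  letI : Algebra Rx K₀ := (e.symm.toAlgHom.comp (Subalgebra.inclusion hle)).toAlgebra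
  haveI : IsScalarTower Rx K₀ K := .of_algebraMap_eq fun x => show _ = (e (e.symm _)).1 by simp
  have hm : ∀ f : Pol k, algebraMap K₀ K (algebraMap (Pol k) K₀ f) ∈ Rx := by
    intro f
    rw [hv.map_alg]
    have h3 : algebraMap (Pol n) K (rename ι f) = aeval (x ∘ ι) f := by
      have h4 : (IsScalarTower.toAlgHom ℂ (Pol n) K).comp (rename ι) = aeval (x ∘ ι) := by
        refine MvPolynomial.algHom_ext fun i => ?_
        rw [aeval_X, AlgHom.comp_apply, rename_X]
        rfl
      exact congrArg (fun g : Pol k →ₐ[ℂ] K => g f) h4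
    rw [h3]
    have h5 : aeval (x ∘ ι) f ∈ (aeval (x ∘ ι) : Pol k →ₐ[ℂ] K).range := ⟨f, rfl⟩
    rw [← Algebra.adjoin_range_eq_range_aeval] at h5
    rw [hRx, ← Set.range_comp]
    exact h5
  let φ : Pol k →+* Rx := ((algebraMap K₀ K).comp (algebraMap (Pol k) K₀)).codRestrict Rx hm
  have hcomp : (algebraMap Rx K₀).comp φ = (RingHom.id K₀).comp (algebraMap (Pol k) K₀) := by
    refine RingHom.ext fun f => ?_
    apply (algebraMap K₀ K).injective
    show algebraMap K₀ K (algebraMap Rx K₀ (φ f)) = _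
    rw [← IsScalarTower.algebraMap_apply Rx K₀ K]
    rfl
  have hinj : Function.Injective φ := by
    intro f g hfg
    have h3 : algebraMap K₀ K (algebraMap (Pol k) K₀ f) = algebraMap K₀ K (algebraMap (Pol k) K₀ g) :=
      congrArg (fun r : Rx => (r : K)) hfg
    exact FaithfulSMul.algebraMap_injective (Pol k) K₀ ((algebraMap K₀ K).injective h3)
  haveI : Algebra.IsAlgebraic Rx K₀ := ⟨fun a =>
    (Algebra.IsAlgebraic.isAlgebraic (R := Pol k) a).ringHom_of_comp_eq φ (RingHom.id K₀) hinj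
      hcomp⟩
  exact AlgebraicIndependent.extendScalars K₀ h1

theorem em_injective [FaithfulSMul (Pol n) K] [FaithfulSMul (Pol k) K₀]
    [Algebra.IsAlgebraic (Pol k) K₀] (hv : Var ι K₀ K) : Function.Injective (em ι K₀ K) :=
  indep hv

theorem isIntegral_sp [FaithfulSMul (Pol n) K] [FaithfulSMul (Pol k) K₀]
    [Algebra.IsAlgebraic (Pol k) K₀] (hv : Var ι K₀ K) (a : Fin n → ℂ)
    {b : MvPolynomial (Oth ι) K₀} (hb : IsIntegral (Pol n) (em ι K₀ K b)) :
    IsIntegral (Pol k) (sp ι K₀ a b) := by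
  obtain ⟨P, hP, hPb⟩ := hb
  have h1 : Polynomial.eval₂ (uu ι K₀).toRingHom b P = 0 := by
    apply em_injective hv
    have h2 := Polynomial.hom_eval₂ P (uu ι K₀).toRingHom (em ι K₀ K).toRingHom b
    have h3 : (em ι K₀ K).toRingHom.comp (uu ι K₀).toRingHom = algebraMap (Pol n) K :=
      RingHom.ext fun f => em_uu hv f
    rw [h3] at h2
    rw [map_zero]
    exact h2.trans hPb
  refine ⟨P.map (spec ι a).toRingHom, hP.map _, ?_⟩
  rw [Polynomial.eval₂_map]
  have h4 : (algebraMap (Pol k) K₀).comp (spec ι a).toRingHom =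
      (sp ι K₀ a).toRingHom.comp (uu ι K₀).toRingHom := RingHom.ext fun f => (sp_uu a f).symm
  rw [h4]
  have h5 := Polynomial.hom_eval₂ P (uu ι K₀).toRingHom (sp ι K₀ a).toRingHom b
  rw [h1, map_zero] at h5
  exact h5.symm

/-- Elements of `K₀` which are regular above are regular on the base. -/
theorem isReg_base [FaithfulSMul (Pol n) K] [FaithfulSMul (Pol k) K₀] {A : Mod n K} {B : Mod k K₀}
    (hv : Var ι K₀ K) {a : Fin n → ℂ} {m : ℕ} (hd : spec ι a A.E.h ∣ B.E.h ^ m) {x : K₀}
    (hx : A.IsReg (algebraMap K₀ K x)) : B.IsReg x := by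
  haveI := isAlgebraic_of_prim B.E
  obtain ⟨f, l, hf⟩ := hx
  have h1 : IsIntegral (Pol n) (em ι K₀ K (uu ι K₀ A.E.h ^ l * C x)) := by
    rw [map_mul, map_pow, em_uu hv, ← MvPolynomial.algebraMap_eq, AlgHom.commutes, hf]
    exact adjoin_le_integralClosure A.E.integral (Polynomial.aeval_mem_adjoin_singleton _ _)
  have h2 := isIntegral_sp hv a h1
  rw [map_mul, map_pow, sp_uu, ← MvPolynomial.algebraMap_eq, AlgHom.commutes] at h2
  obtain ⟨g, hg⟩ := hd
  have h3 : B.IsReg (algebraMap (Pol k) K₀ (g ^ l) * (algebraMap (Pol k) K₀ (spec ι a A.E.h) ^ l *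
      algebraMap K₀ K₀ x)) := (Mod.isReg_alg _).mul (Mod.isReg_of_integral h2)
  have h4 : algebraMap (Pol k) K₀ B.E.h ≠ 0 := by
    rw [Ne, FaithfulSMul.algebraMap_eq_zero_iff]
    exact B.E.h0
  have h5 : x = (algebraMap (Pol k) K₀ (g ^ l) * (algebraMap (Pol k) K₀ (spec ι a A.E.h) ^ l *
      algebraMap K₀ K₀ x)) * (algebraMap (Pol k) K₀ B.E.h)⁻¹ ^ (m * l) := by
    have h6 : algebraMap (Pol k) K₀ (g ^ l) * algebraMap (Pol k) K₀ (spec ι a A.E.h) ^ l =
        algebraMap (Pol k) K₀ B.E.h ^ (m * l) := by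
      rw [← map_pow, ← map_mul, ← mul_pow, mul_comm g, ← hg, ← pow_mul, map_pow]
    rw [← mul_assoc, h6, inv_pow]
    have h7 : algebraMap (Pol k) K₀ B.E.h ^ (m * l) ≠ 0 := pow_ne_zero _ h4
    have h8 : algebraMap K₀ K₀ x = x := rfl
    rw [h8]
    field_simp
  rw [h5]
  exact h3.mul (Mod.isReg_h_inv.pow _)

/-! ### Lying over -/

/-- Homomorphisms to `ℂ` extend along injective integral extensions. -/
theorem exists_extend {C' D' : Type} [CommRing C'] [CommRing D'] [Algebra ℂ D'] (j : C' →+* D')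
    (hj : Function.Injective j)
    (hint : ∀ b : D', ∃ P : Polynomial C', P.Monic ∧ Polynomial.eval₂ j b P = 0) (γ : ℂ →+* C')
    (hγ : ∀ c, j (γ c) = algebraMap ℂ D' c) (ψ : C' →+* ℂ) (hψ : ∀ c, ψ (γ c) = c) :
    ∃ χ : D' →+* ℂ, (∀ c, χ (j c) = ψ c) := by
  letI : Algebra C' D' := j.toAlgebra
  haveI : Algebra.IsIntegral C' D' := ⟨hint⟩
  haveI : (RingHom.ker ψ).IsPrime := RingHom.ker_isPrime ψ
  obtain ⟨Q, -, hQ, hcomap⟩ := Ideal.exists_ideal_over_prime_of_isIntegral (S := D')
    (RingHom.ker ψ) ⊥ (by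
      intro x hx
      have h1 : algebraMap C' D' x = 0 := by simpa using hx
      have h2 : x = 0 := hj (by rw [map_zero]; exact h1)
      rw [h2]
      exact Ideal.zero_mem _)
  -- the quotient is `ℂ`
  have hmem : ∀ c : C', Ideal.Quotient.mk Q (j c) = algebraMap ℂ (D' ⧸ Q) (ψ c) := by
    intro c
    have h1 : c - γ (ψ c) ∈ RingHom.ker ψ := by
      rw [RingHom.mem_ker, map_sub, hψ, sub_self]
    rw [← hcomap, Ideal.mem_comap] at h1
    have h2 : Ideal.Quotient.mk Q (j (c - γ (ψ c))) = 0 := Ideal.Quotient.eq_zero_iff_mem.2 h1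
    rw [map_sub, map_sub, sub_eq_zero, hγ] at h2
    exact h2
  haveI : Algebra.IsIntegral ℂ (D' ⧸ Q) := by
    refine ⟨fun d => ?_⟩
    obtain ⟨d, rfl⟩ := Ideal.Quotient.mk_surjective d
    obtain ⟨P, hP, hPd⟩ := hint d
    refine ⟨P.map ψ, hP.map _, ?_⟩
    have h1 : (algebraMap ℂ (D' ⧸ Q)).comp ψ = (Ideal.Quotient.mk Q).comp j :=
      RingHom.ext fun c => (hmem c).symm
    rw [Polynomial.eval₂_map, h1, ← Polynomial.hom_eval₂, hPd, map_zero]
  have hb := IsAlgClosed.algebraMap_bijective_of_isIntegral (k := ℂ) (K := D' ⧸ Q)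
  let e : ℂ ≃+* (D' ⧸ Q) := RingEquiv.ofBijective (algebraMap ℂ (D' ⧸ Q)) hb
  refine ⟨e.symm.toRingHom.comp (Ideal.Quotient.mk Q), fun c => ?_⟩
  show e.symm (Ideal.Quotient.mk Q (j c)) = ψ c
  rw [hmem]
  exact e.symm_apply_apply (ψ c)

/-- Lying over: a point of the base and values of the other coordinates. -/
theorem exists_hom_over [FaithfulSMul (Pol n) K] [FaithfulSMul (Pol k) K₀]
    [Algebra.IsAlgebraic (Pol k) K₀] (hv : Var ι K₀ K) (φ : IB k K₀ →+* ℂ)
    (hφ : ∀ c : ℂ, φ (algebraMap (Pol k) (IB k K₀) (C c)) = c) (a : Fin n → ℂ) :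
    ∃ χ : IB n K →+* ℂ, (∀ b : IB k K₀, χ ⟨algebraMap K₀ K b, hv.isIntegral b.2⟩ = φ b) ∧
      (∀ j, j ∉ Set.range ι → χ (algebraMap (Pol n) (IB n K) (X j)) = a j) ∧
      ∀ c : ℂ, χ (algebraMap (Pol n) (IB n K) (C c)) = c := by
  -- the map `(IB k K₀)[z''] → IB n K`
  let j₀ : IB k K₀ →+* IB n K :=
    { toFun := fun b => ⟨algebraMap K₀ K b, hv.isIntegral b.2⟩
      map_one' := Subtype.ext (map_one _)
      map_mul' := fun a b => Subtype.ext (map_mul _ _ _)
      map_zero' := Subtype.ext (map_zero _)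
      map_add' := fun a b => Subtype.ext (map_add _ _ _) }
  let j : MvPolynomial (Oth ι) (IB k K₀) →+* IB n K :=
    eval₂Hom j₀ (fun i : Oth ι => algebraMap (Pol n) (IB n K) (X i.1))
  have hjem : ∀ f, ((j f : IB n K) : K) = em ι K₀ K (MvPolynomial.map (algebraMap (IB k K₀) K₀) f) := by
    have : (algebraMap (IB n K) K).comp j =
        (em ι K₀ K).toRingHom.comp (MvPolynomial.map (algebraMap (IB k K₀) K₀)) := by
      refine MvPolynomial.ringHom_ext (fun c => ?_) (fun i => ?_)
      · simp only [RingHom.comp_apply, AlgHom.toRingHom_eq_coe, RingHom.coe_coe, map_C]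
        rw [show (C ((algebraMap (IB k K₀) K₀) c) : MvPolynomial (Oth ι) K₀) =
          algebraMap K₀ (MvPolynomial (Oth ι) K₀) (algebraMap (IB k K₀) K₀ c) from rfl,
          AlgHom.commutes]
        simp only [j, coe_eval₂Hom, eval₂_C]
        rfl
      · simp only [RingHom.comp_apply, AlgHom.toRingHom_eq_coe, RingHom.coe_coe, map_X]
        rw [em, aeval_X]
        simp only [j, coe_eval₂Hom, eval₂_X]
        rfl
    intro f
    exact congrArg (fun g : MvPolynomial (Oth ι) (IB k K₀) →+* K => g f) this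
  have hj : Function.Injective j := by
    intro f g hfg
    have h1 := congrArg (fun b : IB n K => (b : K)) hfg
    simp only [hjem] at h1
    have h2 := em_injective hv h1
    refine MvPolynomial.map_injective _ ?_ h2
    exact Subtype.val_injective
  have hint : ∀ b : IB n K, ∃ P : Polynomial (MvPolynomial (Oth ι) (IB k K₀)),
      P.Monic ∧ Polynomial.eval₂ j b P = 0 := by
    intro b
    obtain ⟨P, hP, hPb⟩ := b.2
    let r : Pol n →+* MvPolynomial (Oth ι) (IB k K₀) := by
      classical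
      exact eval₂Hom ((MvPolynomial.C).comp ((algebraMap (Pol k) (IB k K₀)).comp C))
        (fun i => if h : i ∈ Set.range ι then C (algebraMap (Pol k) (IB k K₀) (X h.choose))
          else X ⟨i, h⟩)
    have hr : j.comp r = algebraMap (Pol n) (IB n K) := by
      classical
      refine MvPolynomial.ringHom_ext (fun c => ?_) (fun i => ?_)
      · simp only [RingHom.comp_apply, r, j, coe_eval₂Hom, eval₂_C]
        apply Subtype.ext
        show algebraMap K₀ K (algebraMap (Pol k) K₀ (C c)) = algebraMap (Pol n) K (C c)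
        rw [hv.map_alg, rename_C]
      · by_cases hi : i ∈ Set.range ι
        · simp only [RingHom.comp_apply, r, j, coe_eval₂Hom, eval₂_X]
          rw [dif_pos hi, eval₂_C]
          apply Subtype.ext
          show algebraMap K₀ K (algebraMap (Pol k) K₀ (X hi.choose)) = algebraMap (Pol n) K (X i)
          rw [hv hi.choose, hi.choose_spec]
        · simp only [RingHom.comp_apply, r, j, coe_eval₂Hom, eval₂_X]
          rw [dif_neg hi, eval₂_X]
    refine ⟨P.map r, hP.map _, ?_⟩
    rw [Polynomial.eval₂_map, hr]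
    apply Subtype.ext
    have h3 := Polynomial.hom_eval₂ P (algebraMap (Pol n) (IB n K)) (algebraMap (IB n K) K) b
    show algebraMap (IB n K) K _ = 0
    rw [h3]
    exact hPb
  let γ : ℂ →+* MvPolynomial (Oth ι) (IB k K₀) :=
    (MvPolynomial.C).comp ((algebraMap (Pol k) (IB k K₀)).comp C)
  have hγ : ∀ c, j (γ c) = algebraMap ℂ (IB n K) c := by
    intro c
    apply Subtype.ext
    simp only [γ, j, RingHom.comp_apply, coe_eval₂Hom, eval₂_C]
    show algebraMap K₀ K (algebraMap (Pol k) K₀ (C c)) = algebraMap ℂ K c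
    rw [hv.map_alg, rename_C, IsScalarTower.algebraMap_apply ℂ (Pol n) K]
    rfl
  let ψ : MvPolynomial (Oth ι) (IB k K₀) →+* ℂ := eval₂Hom φ (fun i => a i.1)
  have hψ : ∀ c, ψ (γ c) = c := fun c => by
    simp only [γ, ψ, RingHom.comp_apply, coe_eval₂Hom, eval₂_C]
    exact hφ c
  obtain ⟨χ, hχ⟩ := exists_extend (C' := MvPolynomial (Oth ι) (IB k K₀)) (D' := IB n K) j hj hint
    γ hγ ψ hψ
  refine ⟨χ, fun b => ?_, fun i hi => ?_, fun c => ?_⟩
  · have h1 := hχ (C b)
    simp only [j, ψ, coe_eval₂Hom, eval₂_C] at h1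
    exact h1
  · have h1 := hχ (X ⟨i, hi⟩)
    simp only [j, ψ, coe_eval₂Hom, eval₂_X] at h1
    exact h1
  · have h1 := hχ (γ c)
    rw [hγ] at h1
    simp only [γ, ψ, RingHom.comp_apply, coe_eval₂Hom, eval₂_C] at h1
    rw [hφ] at h1
    have h2 : algebraMap (Pol n) (IB n K) (C c) = algebraMap ℂ (IB n K) c := by
      apply Subtype.ext
      show algebraMap (Pol n) K (C c) = algebraMap ℂ K c
      rw [IsScalarTower.algebraMap_apply ℂ (Pol n) K]
      rfl
    rw [h2]
    exact h1

end Vale.Agent.P299.H340
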