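import Vale.Agent.P299.H340.Model.BaseAlg

/-!
# P299, the model of the open variety: finiteness of `K₀` over `ℂ(z')`
-/

set_option autoImplicit false
set_option linter.unusedSectionVars false
set_option linter.style.haveILetI false

open MvPolynomial

namespace Vale.Agent.P299.H340

open Vale.Agent
open Vale.Agent.P282.L2 (Pol Prim pev IB IsPartials)

variable {n k : ℕ} {K₀ K : Type} [Field K₀] [Field K] [Algebra ℂ K₀] [Algebra ℂ K]
  [Algebra (Pol k) K₀] [Algebra (Pol n) K] [IsScalarTower ℂ (Pol k) K₀]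
  [IsScalarTower ℂ (Pol n) K] [Algebra K₀ K] [IsScalarTower ℂ K₀ K] {ι : Fin k ↪ Fin n}

theorem linearIndependent_base [FaithfulSMul (Pol n) K] [FaithfulSMul (Pol k) K₀]
    [Algebra.IsAlgebraic (Pol k) K₀] (hv : Var ι K₀ K) {κ : Type*} {b : κ → K₀}
    (hb : LinearIndependent (Pol k) b) :
    LinearIndependent (Pol n) (fun i => algebraMap K₀ K (b i)) := by
  rw [linearIndependent_iff'] at hb ⊢
  intro s g hg
  by_contra hc
  push Not at hc
  obtain ⟨i₀, hi₀, hg0⟩ := hc
  obtain ⟨a, ha⟩ := exists_spec_ne_zero ι hg0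
  have h1 : ∑ i ∈ s, uu ι K₀ (g i) * C (b i) = 0 := by
    apply em_injective hv
    rw [map_sum, map_zero, ← hg]
    refine Finset.sum_congr rfl fun i _ => ?_
    rw [map_mul, em_uu hv, ← MvPolynomial.algebraMap_eq, AlgHom.commutes, Algebra.smul_def]
  have h2 : ∑ i ∈ s, spec ι a (g i) • b i = 0 := by
    have h3 := congrArg (sp ι K₀ a) h1
    rw [map_sum, map_zero] at h3
    rw [← h3]
    refine Finset.sum_congr rfl fun i _ => ?_
    rw [map_mul, sp_uu, ← MvPolynomial.algebraMap_eq, AlgHom.commutes, Algebra.smul_def]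
    rfl
  exact ha (hb s _ h2 i₀ hi₀)

/-- `K₀` is finite over `ℂ(z')`. -/
theorem finiteDimensional_base [FaithfulSMul (Pol n) K] [FaithfulSMul (Pol k) K₀]
    [Algebra.IsAlgebraic (Pol k) K₀] (hv : Var ι K₀ K)
    [Algebra (FractionRing (Pol k)) K₀] [IsScalarTower (Pol k) (FractionRing (Pol k)) K₀]
    [Algebra (FractionRing (Pol n)) K] [IsScalarTower (Pol n) (FractionRing (Pol n)) K]
    [FiniteDimensional (FractionRing (Pol n)) K] :
    FiniteDimensional (FractionRing (Pol k)) K₀ := by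
  have h1 : Module.rank (FractionRing (Pol k)) K₀ ≤
      (Module.finrank (FractionRing (Pol n)) K : ℕ) := by
    refine rank_le fun s hs => ?_
    have h2 : LinearIndependent (Pol k) (fun i : s => (i : K₀)) :=
      (LinearIndependent.iff_fractionRing (Pol k) (FractionRing (Pol k))).2 hs
    have h3 := (LinearIndependent.iff_fractionRing (Pol n) (FractionRing (Pol n))).1
      (linearIndependent_base hv h2)
    have h4 := h3.fintype_card_le_finrank
    rwa [Fintype.card_coe] at h4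
  exact Module.rank_lt_aleph0_iff.1 (lt_of_le_of_lt h1 (Cardinal.natCast_lt_aleph0))

/-- `K₀` is algebraic over `ℂ[z']` if `z'` is a transcendence basis. -/
theorem isAlgebraic_of_basis {K₀ : Type} [Field K₀] [Algebra ℂ K₀] [Algebra (Pol k) K₀]
    [IsScalarTower ℂ (Pol k) K₀] {z' : Fin k → K₀} (hz : IsTranscendenceBasis ℂ z')
    (h : ∀ i, algebraMap (Pol k) K₀ (X i) = z' i) : Algebra.IsAlgebraic (Pol k) K₀ := by
  haveI := hz.isAlgebraic
  have h1 : (IsScalarTower.toAlgHom ℂ (Pol k) K₀) = aeval z' := by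
    refine MvPolynomial.algHom_ext fun i => ?_
    rw [aeval_X, ← h i]
    rfl
  refine ⟨fun a => ?_⟩
  have h2 : IsAlgebraic (Algebra.adjoin ℂ (Set.range z')) a := Algebra.IsAlgebraic.isAlgebraic a
  let f : Pol k →+* Algebra.adjoin ℂ (Set.range z') :=
    (algebraMap (Pol k) K₀).codRestrict (Algebra.adjoin ℂ (Set.range z')).toSubring fun g => by
      show algebraMap (Pol k) K₀ g ∈ Algebra.adjoin ℂ (Set.range z')
      rw [Algebra.adjoin_range_eq_range_aeval, ← h1]
      exact ⟨g, rfl⟩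
  have hf : Function.Surjective f := by
    rintro ⟨g, hg⟩
    rw [Algebra.adjoin_range_eq_range_aeval, ← h1] at hg
    obtain ⟨g', hg'⟩ := hg
    exact ⟨g', Subtype.ext hg'⟩
  exact h2.of_ringHom_of_comp_eq f (RingHom.id K₀) hf (RingHom.id K₀).injective rfl

/-- Transcendence bases indexed by `Fin k`. -/
theorem exists_fin_basis {K₀ K : Type} [Field K₀] [Field K] [Algebra ℂ K₀] [Algebra ℂ K]
    (f : K₀ →ₐ[ℂ] K) {n : ℕ} (hn : Algebra.trdeg ℂ K ≤ n) :
    ∃ (k : ℕ) (z' : Fin k → K₀), k ≤ n ∧ IsTranscendenceBasis ℂ z' ∧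
      AlgebraicIndependent ℂ (f ∘ z') := by
  obtain ⟨s, hs⟩ := exists_isTranscendenceBasis ℂ K₀
  have h1 : Cardinal.mk s = Algebra.trdeg ℂ K₀ := hs.cardinalMk_eq_trdeg
  have h2 : Algebra.trdeg ℂ K₀ ≤ Algebra.trdeg ℂ K :=
    trdeg_le_of_injective f f.toRingHom.injective
  have h3 : Cardinal.mk s ≤ n := h1.le.trans (h2.trans hn)
  have h4 : Cardinal.mk s < Cardinal.aleph0 := lt_of_le_of_lt h3 Cardinal.natCast_lt_aleph0
  haveI : Finite s := Cardinal.lt_aleph0_iff_finite.1 h4
  obtain ⟨k, ⟨e⟩⟩ := Finite.exists_equiv_fin s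
  refine ⟨k, fun i => (e.symm i : K₀), ?_, ?_, ?_⟩
  · have h5 : Cardinal.mk s = k := by
      rw [Cardinal.mk_congr e, Cardinal.mk_fin]
    rw [h5] at h3
    exact_mod_cast h3
  · exact hs.comp_equiv e.symm
  · have h6 : IsTranscendenceBasis ℂ (fun i => (e.symm i : K₀)) := hs.comp_equiv e.symm
    exact h6.1.map' f.toRingHom.injective

end Vale.Agent.P299.H340
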