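import Vale.Agent.P282.Bd3.B1
import Vale.Agent.P271.H408.Ext

/-!
# P299, model of the open variety: holomorphic functions of polynomial growth on `ℂⁿ ∖ {h = 0}`

The first part is a port of a part of `P282/Bd3/B4.lean`.
-/

set_option autoImplicit false

open MeasureTheory Filter Topology
open scoped ENNReal NNReal ComplexConjugate

namespace Vale.Agent.P299.H340

open Vale.Agent.P282.L2 (Pol)

variable {n : ℕ}

/-! ### Entire functions of polynomial growth -/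

/-- One variable. -/
theorem polyW_one {g : ℂ → ℂ} (hg : Differentiable ℂ g) {A B : ℝ} {k : ℕ}
    (h : ∀ t, ‖g t‖ ≤ A * (B + ‖t‖) ^ k) :
    ∃ p : Polynomial ℂ, p.natDegree ≤ k ∧ ∀ t, g t = p.eval t := by
  have hz : ∀ m, k < m → iteratedDeriv m g 0 = 0 := by
    intro m hm
    have hb : ∀ R : ℝ, 0 < R → ‖iteratedDeriv m g 0‖ ≤ m.factorial * (A * (B + R) ^ k) / R ^ m := by
      intro R hR
      apply Complex.norm_iteratedDeriv_le_of_forall_mem_sphere_norm_le m hR hg.diffContOnCl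
      intro z hz
      rw [mem_sphere_zero_iff_norm] at hz
      rw [← hz]
      exact h z
    have hlim : Tendsto (fun R : ℝ => m.factorial * (A * (B + R) ^ k) / R ^ m) atTop (𝓝 0) := by
      have h1 : Tendsto (fun R : ℝ => (m.factorial * (A * (B / R + 1) ^ k)) * (R ^ (m - k))⁻¹)
          atTop (𝓝 ((m.factorial * (A * (0 + 1) ^ k)) * 0)) := by
        apply Tendsto.mul
        · apply Tendsto.const_mul
          apply Tendsto.const_mul
          apply Tendsto.pow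
          exact (tendsto_const_nhds.div_atTop tendsto_id).add_const 1
        · exact (tendsto_pow_atTop (by omega)).inv_tendsto_atTop
      rw [mul_zero] at h1
      refine h1.congr' ?_
      filter_upwards [eventually_gt_atTop 0] with R hR
      have h2 : R ^ m = R ^ k * R ^ (m - k) := by rw [← pow_add]; congr 1; omega
      have h3 : B / R + 1 = (B + R) / R := by field_simp
      rw [h2, h3, div_pow]
      field_simp
    have h0 : ‖iteratedDeriv m g 0‖ ≤ 0 := by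
      apply ge_of_tendsto hlim
      filter_upwards [eventually_gt_atTop 0] with R hR using hb R hR
    exact norm_le_zero_iff.1 h0
  refine ⟨∑ m ∈ Finset.range (k + 1), Polynomial.monomial m
    ((m.factorial : ℂ)⁻¹ * iteratedDeriv m g 0), ?_, ?_⟩
  · refine (Polynomial.natDegree_sum_le _ _).trans ?_
    rw [Finset.fold_max_le]
    refine ⟨Nat.zero_le _, fun m hm => ?_⟩
    refine (Polynomial.natDegree_monomial_le _).trans ?_
    rw [Finset.mem_range] at hm
    omega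
  · intro t
    have h1 := Complex.taylorSeries_eq_of_entire' 0 t hg
    rw [← h1, tsum_eq_sum (s := Finset.range (k + 1))]
    · rw [Polynomial.eval_finsetSum]
      apply Finset.sum_congr rfl
      intro m _
      rw [Polynomial.eval_monomial, sub_zero]
    · intro m hm
      rw [Finset.mem_range, not_lt] at hm
      rw [hz m (by omega)]
      simp

/-- The Lagrange basis polynomial for the nodes `0, …, k`. -/
noncomputable def polyWLag (k : ℕ) (a : Fin (k + 1)) : Polynomial ℂ :=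
  Lagrange.basis Finset.univ (fun b : Fin (k + 1) => ((b : ℕ) : ℂ)) a

theorem polyW_interp {k : ℕ} {p : Polynomial ℂ} (hp : p.natDegree ≤ k) (t : ℂ) :
    p.eval t = ∑ a : Fin (k + 1), p.eval ((a : ℕ) : ℂ) * (polyWLag k a).eval t := by
  have hinj : Set.InjOn (fun b : Fin (k + 1) => ((b : ℕ) : ℂ)) (Finset.univ : Finset (Fin (k+1))) := by
    intro a _ b _ hab
    exact Fin.ext (Nat.cast_injective hab)
  have hdeg : p.degree < (Finset.univ : Finset (Fin (k + 1))).card := by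
    rw [Finset.card_univ, Fintype.card_fin]
    refine lt_of_le_of_lt Polynomial.degree_le_natDegree ?_
    exact_mod_cast Nat.lt_succ_of_le hp
  have h1 := Lagrange.eq_interpolate_of_eval_eq (fun a : Fin (k + 1) => p.eval ((a : ℕ) : ℂ)) hinj hdeg
    (fun i _ => rfl)
  nth_rewrite 1 [h1]
  rw [Lagrange.interpolate_apply, Polynomial.eval_finsetSum]
  apply Finset.sum_congr rfl
  intro a _
  rw [Polynomial.eval_mul, Polynomial.eval_C]
  rfl

/-- Several variables. -/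
theorem polyW_several {k : ℕ} : ∀ (n : ℕ) (f : (Fin n → ℂ) → ℂ),
    (∀ (z : Fin n → ℂ) (i : Fin n), ∃ p : Polynomial ℂ, p.natDegree ≤ k ∧
      ∀ t, f (Function.update z i t) = p.eval t) →
    ∀ z, f z = ∑ a : Fin n → Fin (k + 1), f (fun i => ((a i : ℕ) : ℂ)) *
      ∏ i, (polyWLag k (a i)).eval (z i) := by
  intro n
  induction n with
  | zero =>
    intro f _ z
    rw [Fintype.sum_unique]
    simp only [Finset.univ_eq_empty, Finset.prod_empty, mul_one]
    congr 1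
    exact Subsingleton.elim _ _
  | succ n ih =>
    intro f hf z
    have hcons : ∀ (z' : Fin n → ℂ) (s t : ℂ), Function.update (Fin.cons s z' : Fin (n + 1) → ℂ) 0 t
        = Fin.cons t z' := by
      intro z' s t
      exact Fin.update_cons_zero _ _ _
    have h0 : ∀ (z' : Fin n → ℂ) (t : ℂ), f (Fin.cons t z') =
        ∑ a : Fin (k + 1), f (Fin.cons ((a : ℕ) : ℂ) z') * (polyWLag k a).eval t := by
      intro z' t
      obtain ⟨p, hp, hp'⟩ := hf (Fin.cons 0 z') 0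
      have hp'' : ∀ t, f (Fin.cons t z') = p.eval t := by
        intro t
        rw [← hp' t, hcons]
      rw [hp'', polyW_interp hp t]
      apply Finset.sum_congr rfl
      intro a _
      rw [hp'']
    have h1 : ∀ (a : Fin (k + 1)) (z' : Fin n → ℂ), f (Fin.cons ((a : ℕ) : ℂ) z') =
        ∑ b : Fin n → Fin (k + 1), f (Fin.cons ((a : ℕ) : ℂ) (fun i => ((b i : ℕ) : ℂ))) *
          ∏ i, (polyWLag k (b i)).eval (z' i) := by
      intro a z'
      apply ih (fun z' => f (Fin.cons ((a : ℕ) : ℂ) z'))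
      intro z' i
      obtain ⟨p, hp, hp'⟩ := hf (Fin.cons ((a : ℕ) : ℂ) z') i.succ
      refine ⟨p, hp, fun t => ?_⟩
      rw [← hp' t, Fin.cons_update]
    have hz : z = Fin.cons (z 0) (Fin.tail z) := (Fin.cons_self_tail z).symm
    have h2 : f z = ∑ a : Fin (k + 1), ∑ b : Fin n → Fin (k + 1),
        f (Fin.cons ((a : ℕ) : ℂ) (fun i => ((b i : ℕ) : ℂ))) *
          ((polyWLag k a).eval (z 0) * ∏ i, (polyWLag k (b i)).eval (Fin.tail z i)) := by
      nth_rewrite 1 [hz]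
      rw [h0]
      apply Finset.sum_congr rfl
      intro a _
      rw [h1, Finset.sum_mul]
      apply Finset.sum_congr rfl
      intro b _
      ring
    rw [h2, ← Finset.sum_product']
    symm
    apply Fintype.sum_equiv (Fin.consEquiv (fun _ => Fin (k + 1))).symm
    intro a
    rw [Fin.prod_univ_succ]
    congr 1
    congr 1
    funext i
    refine Fin.cases ?_ (fun j => ?_) i
    · simp [Fin.consEquiv]
    · simp [Fin.consEquiv, Fin.tail]

/-- The interpolation polynomials. -/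
noncomputable def polyWQ (n k : ℕ) (a : Fin n → Fin (k + 1)) : Pol n :=
  ∏ i, Polynomial.aeval (MvPolynomial.X i : Pol n) (polyWLag k (a i))

theorem polyW_eval_Q (n k : ℕ) (a : Fin n → Fin (k + 1)) (z : Fin n → ℂ) :
    MvPolynomial.eval z (polyWQ n k a) = ∏ i, (polyWLag k (a i)).eval (z i) := by
  rw [polyWQ, map_prod]
  apply Finset.prod_congr rfl
  intro i _
  rw [← MvPolynomial.coe_aeval_eq_eval, RingHom.coe_coe, ← Polynomial.aeval_algHom_apply,
    MvPolynomial.aeval_X, Polynomial.coe_aeval_eq_eval]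

/-- An entire function of polynomial growth is a polynomial. -/
theorem exists_poly_of_entire {k : ℕ} {f : (Fin n → ℂ) → ℂ} {D : ℝ} (hD : 0 ≤ D)
    (hf : Differentiable ℂ f) (hb : ∀ z, ‖f z‖ ≤ D * (2 + ‖z‖) ^ k) :
    ∃ P : Pol n, ∀ z, f z = MvPolynomial.eval z P := by
  classical
  have hsep : ∀ (z : Fin n → ℂ) (i : Fin n), ∃ p : Polynomial ℂ, p.natDegree ≤ k ∧
      ∀ t, f (Function.update z i t) = p.eval t := by
    intro z i
    have hd : Differentiable ℂ (fun t : ℂ => f (Function.update z i t)) := by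
      apply hf.comp
      intro t
      exact (hasFDerivAt_update (𝕜 := ℂ) z t).differentiableAt
    obtain ⟨p, hp, hp'⟩ := polyW_one (k := k) (A := D) (B := 2 + ‖z‖) hd (by
      intro t
      refine (hb _).trans ?_
      apply mul_le_mul_of_nonneg_left _ hD
      apply pow_le_pow_left₀ (by positivity)
      have : ‖Function.update z i t‖ ≤ ‖z‖ + ‖t‖ := by
        rw [pi_norm_le_iff_of_nonneg (by positivity)]
        intro j
        by_cases hj : j = i
        · subst hj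
          rw [Function.update_self]
          have := norm_nonneg z
          linarith
        · rw [Function.update_of_ne hj]
          have := norm_le_pi_norm z j
          have := norm_nonneg t
          linarith
      linarith)
    exact ⟨p, hp, hp'⟩
  refine ⟨∑ a : Fin n → Fin (k + 1), MvPolynomial.C (f fun i => ((a i : ℕ) : ℂ)) * polyWQ n k a, ?_⟩
  intro z
  rw [map_sum, polyW_several n f hsep z]
  apply Finset.sum_congr rfl
  intro a _
  rw [map_mul, MvPolynomial.eval_C, polyW_eval_Q]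

open Vale.Agent.P282.L2.ExhAux (ex ex_nonneg pol_growth norm_sq_le_ex)

/-- `(1 + ex h) |h|²` has polynomial growth. -/
theorem ex_mul_le (h : Pol n) : ∃ (C : ℝ) (l : ℕ), 0 ≤ C ∧ ∀ z : Fin n → ℂ,
    MvPolynomial.eval z h ≠ 0 → (1 + ex h z) * ‖MvPolynomial.eval z h‖ ^ 2 ≤ C * (1 + ‖z‖) ^ l := by
  obtain ⟨C, k, hC, hb⟩ := pol_growth h
  refine ⟨(1 + n) * C ^ 2 + 1, 2 * k + 2, by positivity, fun z hz => ?_⟩
  have h1 : (1 : ℝ) ≤ 1 + ‖z‖ := by linarith [norm_nonneg z]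
  have h2 : ∑ i, ‖z i‖ ^ 2 ≤ n * (1 + ‖z‖) ^ 2 := by
    calc ∑ i, ‖z i‖ ^ 2 ≤ ∑ _i : Fin n, (1 + ‖z‖) ^ 2 := by
          refine Finset.sum_le_sum fun i _ => ?_
          have := norm_le_pi_norm z i
          exact pow_le_pow_left₀ (norm_nonneg _) (by linarith) 2
      _ = n * (1 + ‖z‖) ^ 2 := by simp
  have h3 : ‖(MvPolynomial.eval z h)⁻¹‖ ^ 2 * ‖MvPolynomial.eval z h‖ ^ 2 = 1 := by
    rw [← mul_pow, ← norm_mul, inv_mul_cancel₀ hz]
    simp
  have h4 : ‖MvPolynomial.eval z h‖ ^ 2 ≤ C ^ 2 * (1 + ‖z‖) ^ (2 * k) := by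
    calc ‖MvPolynomial.eval z h‖ ^ 2 ≤ (C * (1 + ‖z‖) ^ k) ^ 2 :=
          pow_le_pow_left₀ (norm_nonneg _) (hb z) 2
      _ = _ := by ring
  have h5 : (1 : ℝ) ≤ (1 + ‖z‖) ^ (2 * k + 2) := one_le_pow₀ h1
  have h6 : (1 : ℝ) ≤ (1 + ‖z‖) ^ 2 := one_le_pow₀ h1
  have h7 : 0 ≤ ‖MvPolynomial.eval z h‖ ^ 2 := by positivity
  calc (1 + ex h z) * ‖MvPolynomial.eval z h‖ ^ 2
      = (1 + ∑ i, ‖z i‖ ^ 2) * ‖MvPolynomial.eval z h‖ ^ 2
        + ‖(MvPolynomial.eval z h)⁻¹‖ ^ 2 * ‖MvPolynomial.eval z h‖ ^ 2 := by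
        unfold ex; ring
    _ ≤ ((1 + n) * (1 + ‖z‖) ^ 2) * (C ^ 2 * (1 + ‖z‖) ^ (2 * k)) + 1 := by
        rw [h3]
        have : 1 + ∑ i, ‖z i‖ ^ 2 ≤ (1 + n) * (1 + ‖z‖) ^ 2 := by nlinarith
        gcongr
    _ = (1 + n) * C ^ 2 * (1 + ‖z‖) ^ (2 * k + 2) + 1 := by ring
    _ ≤ (1 + n) * C ^ 2 * (1 + ‖z‖) ^ (2 * k + 2) + 1 * (1 + ‖z‖) ^ (2 * k + 2) := by
        gcongr
        linarith
    _ = _ := by ring

theorem frequently_ne {h : Pol n} (h0 : h ≠ 0) (p : Fin n → ℂ) :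
    ∃ᶠ z in 𝓝 p, MvPolynomial.eval z h ≠ 0 := by
  have hd := Vale.Agent.P282.L2.dense_nonzeros h0
  exact (mem_closure_iff_frequently.1 (hd p))

/-- Holomorphic functions on `ℂⁿ ∖ {h = 0}` which are square integrable with polynomial weight on
`ℂⁿ` are polynomials. -/
theorem exists_poly_of_L2' {h : Pol n} (h0 : h ≠ 0) {G : (Fin n → ℂ) → ℂ} {k : ℕ}
    (hG : DifferentiableOn ℂ G {z | MvPolynomial.eval z h ≠ 0})
    (hI : ∫⁻ z in {z | MvPolynomial.eval z h ≠ 0},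
      ENNReal.ofReal (‖G z‖ ^ 2 * ((1 + ‖z‖) ^ k)⁻¹) < ⊤) :
    ∃ P : Pol n, ∀ z, MvPolynomial.eval z h ≠ 0 → G z = MvPolynomial.eval z P := by
  set V : Set (Fin n → ℂ) := {z | MvPolynomial.eval z h ≠ 0} with hV
  have hVo : IsOpen V := isOpen_ne_fun (MvPolynomial.continuous_eval h) continuous_const
  set I := ∫⁻ z in V, ENNReal.ofReal (‖G z‖ ^ 2 * ((1 + ‖z‖) ^ k)⁻¹) with hI'
  -- the integral over balls
  have hball : ∀ (p : Fin n → ℂ), ∫⁻ z in Metric.ball p 1 ∩ V, ‖G z‖ₑ ^ 2 ≤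
      ENNReal.ofReal ((2 + ‖p‖) ^ k) * I := by
    intro p
    rw [hI', ← lintegral_const_mul' _ _ ENNReal.ofReal_ne_top]
    refine (setLIntegral_mono_ae' (Metric.isOpen_ball.inter hVo).measurableSet
      (ae_of_all _ fun z hz => ?_)).trans (lintegral_mono_set Set.inter_subset_right)
    have h1 : ‖z‖ ≤ 1 + ‖p‖ := by
      have := hz.1
      rw [Metric.mem_ball, dist_eq_norm] at this
      have h2 := norm_sub_norm_le z p
      linarith
    have h3 : (1 + ‖z‖) ^ k ≤ (2 + ‖p‖) ^ k := pow_le_pow_left₀ (by positivity) (by linarith) k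
    rw [← ENNReal.ofReal_mul (by positivity)]
    have h4 : ‖G z‖ₑ ^ 2 = ENNReal.ofReal (‖G z‖ ^ 2) := by
      rw [← ofReal_norm, ENNReal.ofReal_pow (norm_nonneg _)]
    rw [h4]
    refine ENNReal.ofReal_le_ofReal ?_
    have h5 : 0 < (1 + ‖z‖) ^ k := by positivity
    calc ‖G z‖ ^ 2 = (1 + ‖z‖) ^ k * (‖G z‖ ^ 2 * ((1 + ‖z‖) ^ k)⁻¹) := by
          field_simp
      _ ≤ (2 + ‖p‖) ^ k * (‖G z‖ ^ 2 * ((1 + ‖z‖) ^ k)⁻¹) := by gcongr
  obtain ⟨F, hF, hFG⟩ := Vale.Agent.P271.H408.ext_L2 (U := Set.univ) isOpen_univ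
    (h := fun z => MvPolynomial.eval z h) (f := G)
    (Vale.Agent.P282.L2.ExhAux.diff_eval h).differentiableOn
    (fun p _ => frequently_ne h0 p) (by rw [Set.univ_inter]; exact hG)
    (fun p _ => ⟨1, one_pos, ne_of_lt ((hball p).trans_lt
      (ENNReal.mul_lt_top ENNReal.ofReal_lt_top hI))⟩)
  have hFd : Differentiable ℂ F := differentiableOn_univ.1 hF
  -- growth of `F`
  set b := volume (Metric.ball (0 : Fin n → ℂ) 1) with hb
  have hb0 : b ≠ 0 := (Metric.measure_ball_pos volume 0 one_pos).ne'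
  have hbt : b ≠ ⊤ := measure_ball_lt_top.ne
  have hae : ∀ p : Fin n → ℂ, ∫⁻ w in Metric.ball p 1, ‖F w‖ₑ ^ 2 =
      ∫⁻ z in Metric.ball p 1 ∩ V, ‖G z‖ₑ ^ 2 := by
    intro p
    have hnull : volume Vᶜ = 0 := by
      have := Vale.Agent.P282.L2.volume_zeros h0
      convert this using 2
      ext z
      simp [hV]
    rw [← setLIntegral_congr_fun (Metric.isOpen_ball.inter hVo).measurableSet
      (f := fun z => ‖F z‖ₑ ^ 2) (fun z hz => by
        simp only
        rw [hFG z trivial hz.2])]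
    refine setLIntegral_congr ?_
    refine (ae_eq_set.2 ⟨?_, ?_⟩)
    · refine measure_mono_null ?_ hnull
      rintro z ⟨hz1, hz2⟩ hz3
      exact hz2 ⟨hz1, hz3⟩
    · rw [Set.sdiff_eq_empty.2 Set.inter_subset_left, measure_empty]
  have hgrow : ∀ p, ‖F p‖ ≤ Real.sqrt ((I / b).toReal) * (2 + ‖p‖) ^ k := by
    intro p
    have h1 := Vale.Agent.P271.H408.enorm_sq_mul_volume_le (z := p) (r := 1)
      (hFd.differentiableOn (s := Metric.ball p 1))
    have h2 : volume (Metric.ball p 1) = b := by rw [hb, Measure.addHaar_ball_center]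
    rw [h2, hae p] at h1
    have h3 := h1.trans (hball p)
    have h4 : ‖F p‖ₑ ^ 2 ≤ ENNReal.ofReal ((2 + ‖p‖) ^ k) * (I / b) := by
      rw [← mul_div_assoc]
      exact (ENNReal.le_div_iff_mul_le (Or.inl hb0) (Or.inl hbt)).2 h3
    have h5 : I / b ≠ ⊤ := ENNReal.div_ne_top hI.ne hb0
    have h6 : ‖F p‖ ^ 2 ≤ (2 + ‖p‖) ^ k * (I / b).toReal := by
      have h7 := ENNReal.toReal_mono (ENNReal.mul_ne_top ENNReal.ofReal_ne_top h5) h4
      rw [ENNReal.toReal_mul, ENNReal.toReal_ofReal (by positivity), ENNReal.toReal_pow,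
        toReal_enorm] at h7
      exact h7
    have h8 : (1 : ℝ) ≤ 2 + ‖p‖ := by linarith [norm_nonneg p]
    have h9 : (2 + ‖p‖) ^ k ≤ ((2 + ‖p‖) ^ k) ^ 2 := by
      have : (1 : ℝ) ≤ (2 + ‖p‖) ^ k := one_le_pow₀ h8
      nlinarith
    have h10 : 0 ≤ (I / b).toReal := ENNReal.toReal_nonneg
    refine abs_le_of_sq_le_sq' ?_ (by positivity) |>.2
    calc ‖F p‖ ^ 2 ≤ (2 + ‖p‖) ^ k * (I / b).toReal := h6
      _ ≤ ((2 + ‖p‖) ^ k) ^ 2 * (I / b).toReal := by gcongr
      _ = (Real.sqrt ((I / b).toReal) * (2 + ‖p‖) ^ k) ^ 2 := by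
          rw [mul_pow, Real.sq_sqrt h10, mul_comm]
  obtain ⟨P, hP⟩ := exists_poly_of_entire (Real.sqrt_nonneg _) hFd hgrow
  exact ⟨P, fun z hz => by rw [← hFG z trivial hz, hP]⟩

/-- Holomorphic functions on `ℂⁿ ∖ {h = 0}` with `∫ |g|² (1 + ex h)^(-k) < ∞` are polynomials
divided by `h ^ k`. -/
theorem exists_poly_of_L2 {h : Pol n} (h0 : h ≠ 0) {g : (Fin n → ℂ) → ℂ} {k : ℕ}
    (hg : DifferentiableOn ℂ g {z | MvPolynomial.eval z h ≠ 0})
    (hI : ∫⁻ z in {z | MvPolynomial.eval z h ≠ 0},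
      ENNReal.ofReal (‖g z‖ ^ 2 * ((1 + ex h z) ^ k)⁻¹) < ⊤) :
    ∃ P : Pol n, ∀ z, MvPolynomial.eval z h ≠ 0 →
      g z * MvPolynomial.eval z h ^ k = MvPolynomial.eval z P := by
  have hVo : IsOpen {z : Fin n → ℂ | MvPolynomial.eval z h ≠ 0} :=
    isOpen_ne_fun (MvPolynomial.continuous_eval h) continuous_const
  obtain ⟨C, l, hC, hb⟩ := ex_mul_le h
  refine exists_poly_of_L2' h0 (k := l * k) (G := fun z => g z * MvPolynomial.eval z h ^ k)
    (hg.mul ((Vale.Agent.P282.L2.ExhAux.diff_eval h).differentiableOn.pow k)) ?_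
  have h1 : ∀ z ∈ {z : Fin n → ℂ | MvPolynomial.eval z h ≠ 0},
      ENNReal.ofReal (‖g z * MvPolynomial.eval z h ^ k‖ ^ 2 * ((1 + ‖z‖) ^ (l * k))⁻¹) ≤
      ENNReal.ofReal (C ^ k) * ENNReal.ofReal (‖g z‖ ^ 2 * ((1 + ex h z) ^ k)⁻¹) := by
    intro z hz
    rw [← ENNReal.ofReal_mul (by positivity)]
    refine ENNReal.ofReal_le_ofReal ?_
    have h2 := hb z hz
    have h3 := ex_nonneg h z
    have h4 : 0 < (1 + ‖z‖) ^ (l * k) := by positivity
    have h5 : 0 < (1 + ex h z) ^ k := by positivity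
    rw [norm_mul, norm_pow, mul_pow]
    rw [← div_eq_mul_inv, div_le_iff₀ h4]
    have h6 : ((1 + ex h z) * ‖MvPolynomial.eval z h‖ ^ 2) ^ k ≤ (C * (1 + ‖z‖) ^ l) ^ k :=
      pow_le_pow_left₀ (by positivity) h2 k
    have h7 : (‖MvPolynomial.eval z h‖ ^ k) ^ 2 ≤ C ^ k * (1 + ‖z‖) ^ (l * k) *
        ((1 + ex h z) ^ k)⁻¹ := by
      rw [← div_eq_mul_inv, le_div_iff₀ h5]
      calc (‖MvPolynomial.eval z h‖ ^ k) ^ 2 * (1 + ex h z) ^ k
          = ((1 + ex h z) * ‖MvPolynomial.eval z h‖ ^ 2) ^ k := by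
            rw [mul_pow, ← pow_mul, ← pow_mul, mul_comm k 2, mul_comm]
        _ ≤ (C * (1 + ‖z‖) ^ l) ^ k := h6
        _ = _ := by rw [mul_pow, ← pow_mul]
    calc ‖g z‖ ^ 2 * (‖MvPolynomial.eval z h‖ ^ k) ^ 2
        ≤ ‖g z‖ ^ 2 * (C ^ k * (1 + ‖z‖) ^ (l * k) * ((1 + ex h z) ^ k)⁻¹) := by gcongr
      _ = _ := by ring
  refine (setLIntegral_mono_ae' hVo.measurableSet (ae_of_all _ h1)).trans_lt ?_
  rw [lintegral_const_mul' _ _ ENNReal.ofReal_ne_top]
  exact ENNReal.mul_lt_top ENNReal.ofReal_lt_top hI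

/-- `∫ (1 + |z|)^(-k) < ∞` for large `k`. -/
theorem lintegral_pow_lt_top (n : ℕ) : ∃ k : ℕ,
    ∫⁻ z : Fin n → ℂ, ENNReal.ofReal (((1 + ‖z‖) ^ k)⁻¹) < ⊤ := by
  obtain ⟨k, hk⟩ := exists_nat_gt (Module.finrank ℝ (Fin n → ℂ) : ℝ)
  refine ⟨k, ?_⟩
  have h1 : Integrable (fun z : Fin n → ℂ => (1 + ‖z‖) ^ (-(k : ℝ))) volume :=
    integrable_one_add_norm hk
  have h2 := h1.lintegral_lt_top
  refine lt_of_le_of_lt (le_of_eq ?_) h2
  congr 1
  funext z
  rw [Real.rpow_neg (by positivity), Real.rpow_natCast]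

/-- Holomorphic functions of polynomial growth on `ℂⁿ ∖ {h = 0}` are polynomials divided by a power
of `h`. -/
theorem exists_poly_of_growth {h : Pol n} (h0 : h ≠ 0) {g : (Fin n → ℂ) → ℂ} {c : ℝ} {k : ℕ}
    (hg : DifferentiableOn ℂ g {z | MvPolynomial.eval z h ≠ 0})
    (hb : ∀ z, MvPolynomial.eval z h ≠ 0 → ‖g z‖ ≤ c * (1 + ex h z) ^ k) :
    ∃ (P : Pol n) (l : ℕ), ∀ z, MvPolynomial.eval z h ≠ 0 →
      g z * MvPolynomial.eval z h ^ l = MvPolynomial.eval z P := by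
  obtain ⟨m, hm⟩ := lintegral_pow_lt_top n
  have hVo : IsOpen {z : Fin n → ℂ | MvPolynomial.eval z h ≠ 0} :=
    isOpen_ne_fun (MvPolynomial.continuous_eval h) continuous_const
  have key : ∫⁻ z in {z | MvPolynomial.eval z h ≠ 0},
      ENNReal.ofReal (‖g z‖ ^ 2 * ((1 + ex h z) ^ (2 * k + m))⁻¹) < ⊤ := by
    have h1 : ∀ z ∈ {z : Fin n → ℂ | MvPolynomial.eval z h ≠ 0},
        ENNReal.ofReal (‖g z‖ ^ 2 * ((1 + ex h z) ^ (2 * k + m))⁻¹) ≤
        ENNReal.ofReal (c ^ 2 * 2 ^ m) * ENNReal.ofReal (((1 + ‖z‖) ^ m)⁻¹) := by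
      intro z hz
      rw [← ENNReal.ofReal_mul (by positivity)]
      refine ENNReal.ofReal_le_ofReal ?_
      have h3 := ex_nonneg h z
      have h4 : 1 + ‖z‖ ≤ 2 * (1 + ex h z) := Vale.Agent.P282.L2.ExhAux.one_add_norm_le h z
      have h5 : (1 + ‖z‖) ^ m ≤ 2 ^ m * (1 + ex h z) ^ m := by
        rw [← mul_pow]
        exact pow_le_pow_left₀ (by positivity) h4 m
      have h6 : ‖g z‖ ^ 2 ≤ c ^ 2 * (1 + ex h z) ^ (2 * k) := by
        calc ‖g z‖ ^ 2 ≤ (c * (1 + ex h z) ^ k) ^ 2 :=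
              pow_le_pow_left₀ (norm_nonneg _) (hb z hz) 2
          _ = _ := by ring
      have h7 : 0 < (1 + ‖z‖) ^ m := by positivity
      have h8 : 0 < (1 + ex h z) ^ (2 * k + m) := by positivity
      rw [← div_eq_mul_inv, ← div_eq_mul_inv, div_le_div_iff₀ h8 h7]
      calc ‖g z‖ ^ 2 * (1 + ‖z‖) ^ m
          ≤ (c ^ 2 * (1 + ex h z) ^ (2 * k)) * (2 ^ m * (1 + ex h z) ^ m) := by gcongr
        _ = _ := by ring
    refine (setLIntegral_mono_ae' hVo.measurableSet (ae_of_all _ h1)).trans_lt ?_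
    rw [lintegral_const_mul' _ _ ENNReal.ofReal_ne_top]
    exact ENNReal.mul_lt_top ENNReal.ofReal_lt_top ((setLIntegral_le_lintegral _ _).trans_lt hm)
  obtain ⟨P, hP⟩ := exists_poly_of_L2 h0 hg key
  exact ⟨P, _, hP⟩

end Vale.Agent.P299.H340
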