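import Vale.Agent.P282.Bd3.B1
import Vale.Agent.P300.H435.L2.Holo
import Vale.Agent.P300.H14.ECov

/-!
# P299, model of the open variety: from covers with labels in `ℂ` (`P282.L2.Sheets`) to covers
with labels in `ℕ` (`P300.L2.Sheets`)
-/

set_option autoImplicit false

open MeasureTheory Filter Topology
open scoped ENNReal NNReal ComplexConjugate

namespace Vale.Agent.P299.H340

open Vale.Agent

variable {n N : ℕ}

/-- the total space of a cover embedded in `ℂⁿ × ℂ` -/
abbrev Tot (S : P282.L2.Sheets n N) : Type := {q : (Fin n → ℂ) × ℂ // q ∈ S.M}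

theorem ecov_loc (S : P282.L2.Sheets n N) : ∀ z ∈ S.V, ∃ (W : Set (Fin n → ℂ))
    (s : Fin N → (Fin n → ℂ) → Tot S), IsOpen W ∧ z ∈ W ∧
      W ⊆ S.V ∧ (∀ i, ContinuousOn (s i) W) ∧ (∀ i, ∀ y ∈ W, (fun e : Tot S => e.1.1) (s i y) = y) ∧
      (∀ y ∈ W, Function.Injective fun i => s i y) ∧
      ∀ e, (fun e : Tot S => e.1.1) e ∈ W → ∃ i, s i ((fun e : Tot S => e.1.1) e) = e := by
  classical
  intro z hz
  obtain ⟨W, s, hW, hzW, hWV, hd, hfib⟩ := S.loc z hz
  have hm : ∀ i, ∀ y ∈ W, (y, s i y) ∈ S.M := fun i y hy =>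
    ⟨hWV hy, by show s i y ∈ S.fib y; rw [(hfib y hy).2]; simp⟩
  refine ⟨W, fun i y => if h : y ∈ W then ⟨(y, s i y), hm i y h⟩ else ⟨(z, s i z), hm i z hzW⟩,
    hW, hzW, hWV, fun i => ?_, fun i y hy => ?_, fun y hy i j hij => ?_, fun e he => ?_⟩
  · rw [continuousOn_iff_continuous_domRestrict]
    have h1 : ContinuousOn (fun y => (y, s i y)) W := continuousOn_id.prodMk (hd i).continuousOn
    rw [continuousOn_iff_continuous_domRestrict] at h1
    refine (h1.subtype_mk (fun y => hm i y.1 y.2)).congr fun y => ?_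
    apply Subtype.ext
    simp [Set.domRestrict]
  · simp [hy]
  · simp only [hy, dif_pos] at hij
    exact (hfib y hy).1 (congrArg (fun e : Tot S => e.1.2) hij)
  · have h1 : e.1.2 ∈ S.fib e.1.1 := e.2.2
    rw [(hfib _ he).2, Finset.mem_image] at h1
    obtain ⟨i, -, hi⟩ := h1
    refine ⟨i, ?_⟩
    simp only at he ⊢
    rw [dif_pos he]
    exact Subtype.ext (Prod.ext rfl hi)

/-- the covering without labels -/
noncomputable def ecov (S : P282.L2.Sheets n N) : P300.L2.ECov n N (Tot S) :=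
  P300.L2.ECov.ofSections (p := fun e => e.1.1) S.isOpen
    (continuous_fst.comp continuous_subtype_val) (fun e => e.2.1) (ecov_loc S)

@[simp] theorem ecov_V (S : P282.L2.Sheets n N) : (ecov S).V = S.V := rfl

@[simp] theorem ecov_p (S : P282.L2.Sheets n N) (e : Tot S) : (ecov S).p e = e.1.1 := rfl

variable (S : P282.L2.Sheets n N) [Nonempty (Tot S)]

/-- the labelled cover -/
noncomputable def lab : P300.L2.Sheets n N := (ecov S).S

/-- the point of `S.M` with given base point and label -/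
noncomputable def pt (q : (Fin n → ℂ) × ℕ) : (Fin n → ℂ) × ℂ := ((ecov S).pt q).1

open Classical in
/-- base point and label of a point of `S.M` -/
noncomputable def qt (q : (Fin n → ℂ) × ℂ) : (Fin n → ℂ) × ℕ :=
  if h : q ∈ S.M then (ecov S).q ⟨q, h⟩ else (q.1, 0)

@[simp] theorem lab_V : (lab S).V = S.V := rfl

theorem mem_lab_M {q : (Fin n → ℂ) × ℕ} : q ∈ (lab S).M ↔ q.1 ∈ S.V ∧ q.2 < N := by
  show q.1 ∈ S.V ∧ q.2 ∈ Finset.range N ↔ _
  rw [Finset.mem_range]

variable {S}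

theorem pt_mem (q : (Fin n → ℂ) × ℕ) : pt S q ∈ S.M := ((ecov S).pt q).2

theorem pt_fst {q : (Fin n → ℂ) × ℕ} (hq : q ∈ (lab S).M) : (pt S q).1 = q.1 := by
  rw [mem_lab_M] at hq
  exact (ecov S).p_pt (z := q.1) hq.1 hq.2

theorem qt_mem {q : (Fin n → ℂ) × ℂ} (hq : q ∈ S.M) : qt S q ∈ (lab S).M := by
  classical
  rw [mem_lab_M, qt, dif_pos hq]
  exact ⟨hq.1, (ecov S).lab_lt _⟩

theorem qt_fst (q : (Fin n → ℂ) × ℂ) : (qt S q).1 = q.1 := by
  classical
  rw [qt]
  split_ifs with h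
  · rfl
  · rfl

theorem pt_qt {q : (Fin n → ℂ) × ℂ} (hq : q ∈ S.M) : pt S (qt S q) = q := by
  classical
  rw [pt, qt, dif_pos hq, P300.L2.ECov.pt_q]

theorem qt_pt {q : (Fin n → ℂ) × ℕ} (hq : q ∈ (lab S).M) : qt S (pt S q) = q := by
  classical
  rw [mem_lab_M] at hq
  have h := (ecov S).q_pt (z := q.1) hq.1 hq.2
  rw [qt, dif_pos (pt_mem q)]
  exact h

theorem pt_injOn : Set.InjOn (pt S) (lab S).M := fun q hq q' hq' h => by
  rw [← qt_pt hq, h, qt_pt hq']

omit [Nonempty (Tot S)] in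
/-- Continuous sections of the cover are holomorphic. -/
theorem isSection_of_cont {W : Set (Fin n → ℂ)} {s : (Fin n → ℂ) → ℂ} (hW : IsOpen W)
    (hWV : W ⊆ S.V) (hs : ContinuousOn s W) (hm : ∀ z ∈ W, s z ∈ S.fib z) : S.IsSection W s := by
  refine ⟨hW, hWV, ?_, hm⟩
  intro z hz
  obtain ⟨U, t, hU, hzU, hUV, hd, hfib⟩ := S.loc z (hWV hz)
  have h1 := hm z hz
  rw [(hfib z hzU).2, Finset.mem_image] at h1
  obtain ⟨i, -, hi⟩ := h1
  -- near `z` the section `s` is the sheet `i`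
  have h2 : ∀ j, j ≠ i → ∀ᶠ y in 𝓝 z, s y ≠ t j y := by
    intro j hj
    have hc1 : ContinuousAt s z := hs.continuousAt (hW.mem_nhds hz)
    have hc2 : ContinuousAt (t j) z := (hd j).continuousOn.continuousAt (hU.mem_nhds hzU)
    have h3 : s z - t j z ≠ 0 := by
      rw [← hi]
      exact sub_ne_zero.2 fun h => hj ((hfib z hzU).1 h).symm
    filter_upwards [(hc1.sub hc2).eventually_ne h3] with y hy h4
    exact hy (sub_eq_zero.2 h4)
  have h5 : ∀ᶠ y in 𝓝 z, s y = t i y := by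
    have h6 : ∀ᶠ y in 𝓝 z, ∀ j, j ≠ i → s y ≠ t j y := eventually_all.2 fun j => by
      by_cases hj : j = i
      · exact Filter.Eventually.of_forall fun y h => absurd hj h
      · filter_upwards [h2 j hj] with y hy _
        exact hy
    filter_upwards [h6, hW.mem_nhds hz, hU.mem_nhds hzU] with y hy hyW hyU
    have h7 := hm y hyW
    rw [(hfib y hyU).2, Finset.mem_image] at h7
    obtain ⟨j, -, hj⟩ := h7
    by_cases hji : j = i
    · rw [← hj, hji]
    · exact absurd hj.symm (hy j hji)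
  exact (((hd i).differentiableAt (hU.mem_nhds hzU)).congr_of_eventuallyEq h5).differentiableWithinAt

/-- Sections of the labelled cover. -/
theorem isSection_pt {W : Set (Fin n → ℂ)} {s : (Fin n → ℂ) → ℕ} (h : (lab S).IsSection W s) :
    S.IsSection W (fun z => (pt S (z, s z)).2) := by
  obtain ⟨h1, h2, h3⟩ := h
  refine isSection_of_cont h3.isOpen h2 ?_ ?_
  · exact (continuous_snd.comp continuous_subtype_val).comp_continuousOn h3.cont
  · intro z hz
    have h4 := ((ecov S).pt (z, s z)).2.2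
    have h5 : ((ecov S).pt (z, s z)).1.1 = z := (ecov S).p_pt (h2 hz) (h1 z hz)
    rw [h5] at h4
    exact h4

theorem isSection_qt {W : Set (Fin n → ℂ)} {s : (Fin n → ℂ) → ℂ} (h : S.IsSection W s) :
    (lab S).IsSection W (fun z => (qt S (z, s z)).2) := by
  classical
  have hm : ∀ z ∈ W, (z, s z) ∈ S.M := fun z hz => h.mem_M hz
  have h1 : ∀ z ∈ W, (ecov S).pt (z, (qt S (z, s z)).2) =
      if h' : (z, s z) ∈ S.M then ⟨(z, s z), h'⟩ else Classical.arbitrary _ := by
    intro z hz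
    rw [dif_pos (hm z hz), qt, dif_pos (hm z hz)]
    exact (ecov S).pt_q ⟨(z, s z), hm z hz⟩
  refine ⟨fun z hz => ((mem_lab_M S).1 (qt_mem (hm z hz))).2, h.subset, h.isOpen, ?_, ?_⟩
  · rw [continuousOn_iff_continuous_domRestrict]
    have h2 : ContinuousOn (fun y => (y, s y)) W := continuousOn_id.prodMk h.diff.continuousOn
    rw [continuousOn_iff_continuous_domRestrict] at h2
    refine (h2.subtype_mk (fun y => hm y.1 y.2)).congr fun y => ?_
    show _ = (ecov S).pt (y.1, (qt S (y.1, s y.1)).2)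
    rw [h1 y.1 y.2, dif_pos (hm y.1 y.2)]
    rfl
  · intro z hz
    rw [h1 z hz, dif_pos (hm z hz)]
    rfl

theorem pt_section {W : Set (Fin n → ℂ)} {s : (Fin n → ℂ) → ℕ} (h : (lab S).IsSection W s)
    {z : Fin n → ℂ} (hz : z ∈ W) : pt S (z, s z) = (z, (pt S (z, s z)).2) :=
  Prod.ext (pt_fst (h.mem_M hz)) rfl

end Vale.Agent.P299.H340
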