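import Vale.Agent.P299.H340.Model.Lab

/-!
# P299, model of the open variety: links between covers with labels in `ℂ` (`P282.L2.Sheets`) and
covers with labels in `ℕ` (`P300.L2.Sheets`)
-/

set_option autoImplicit false

open MeasureTheory Filter Topology
open scoped ENNReal NNReal ComplexConjugate

namespace Vale.Agent.P299.H340

open Vale.Agent

variable {n N : ℕ}

/-- The cover `S` (labels in `ℕ`) and the cover `S₀` (labels in `ℂ`) are the same. -/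
structure Link (S₀ : P282.L2.Sheets n N) (S : P300.L2.Sheets n N) where
  pt : (Fin n → ℂ) × ℕ → (Fin n → ℂ) × ℂ
  qt : (Fin n → ℂ) × ℂ → (Fin n → ℂ) × ℕ
  V_eq : S.V = S₀.V
  pt_mem : ∀ q ∈ S.M, pt q ∈ S₀.M
  pt_fst : ∀ q ∈ S.M, (pt q).1 = q.1
  qt_mem : ∀ q ∈ S₀.M, qt q ∈ S.M
  qt_fst : ∀ q ∈ S₀.M, (qt q).1 = q.1
  pt_qt : ∀ q ∈ S₀.M, pt (qt q) = q
  qt_pt : ∀ q ∈ S.M, qt (pt q) = q
  sec_pt : ∀ W s, S.IsSection W s → S₀.IsSection W (fun z => (pt (z, s z)).2)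
  sec_qt : ∀ W s, S₀.IsSection W s → S.IsSection W (fun z => (qt (z, s z)).2)

/-- The labelled cover. -/
noncomputable def labLink (S : P282.L2.Sheets n N) [Nonempty (Tot S)] : Link S (lab S) where
  pt := pt S
  qt := qt S
  V_eq := rfl
  pt_mem := fun q _ => pt_mem q
  pt_fst := fun q hq => pt_fst hq
  qt_mem := fun q hq => qt_mem hq
  qt_fst := fun q _ => qt_fst q
  pt_qt := fun q hq => pt_qt hq
  qt_pt := fun q hq => qt_pt hq
  sec_pt := fun W s h => isSection_pt h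
  sec_qt := fun W s h => isSection_qt h

/-- Restriction of a cover with labels in `ℂ` to an open subset. -/
def res0 (S : P282.L2.Sheets n N) (W₀ : Set (Fin n → ℂ)) (hW₀ : IsOpen W₀) (hWV : W₀ ⊆ S.V) :
    P282.L2.Sheets n N where
  V := W₀
  fib := S.fib
  isOpen := hW₀
  loc := fun z₀ hz₀ => by
    obtain ⟨W, s, hW, hz, hWV', hd, hf⟩ := S.loc z₀ (hWV hz₀)
    exact ⟨W ∩ W₀, s, hW.inter hW₀, ⟨hz, hz₀⟩, Set.inter_subset_right,
      fun i => (hd i).mono Set.inter_subset_left, fun z hz => hf z hz.1⟩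

theorem res0_isSection {S : P282.L2.Sheets n N} {W₀ : Set (Fin n → ℂ)} {hW₀ : IsOpen W₀}
    {hWV : W₀ ⊆ S.V} {W : Set (Fin n → ℂ)} {s : (Fin n → ℂ) → ℂ} :
    (res0 S W₀ hW₀ hWV).IsSection W s ↔ S.IsSection W s ∧ W ⊆ W₀ :=
  ⟨fun h => ⟨⟨h.isOpen, h.subset.trans hWV, h.diff, h.mem⟩, h.subset⟩,
    fun h => ⟨h.1.isOpen, h.2, h.1.diff, h.1.mem⟩⟩

namespace Link

variable {S₀ : P282.L2.Sheets n N} {S : P300.L2.Sheets n N} (L : Link S₀ S)

/-- Restriction to an open subset. -/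
def res (W₀ : Set (Fin n → ℂ)) (hW₀ : IsOpen W₀) (hWV : W₀ ⊆ S.V) :
    Link (res0 S₀ W₀ hW₀ (hWV.trans L.V_eq.subset)) (S.res W₀ hW₀ hWV) where
  pt := L.pt
  qt := L.qt
  V_eq := rfl
  pt_mem := fun q hq => by
    have hq' : q ∈ S.M := ⟨hWV hq.1, hq.2⟩
    refine ⟨?_, (L.pt_mem q hq').2⟩
    rw [L.pt_fst q hq']
    exact hq.1
  pt_fst := fun q hq => L.pt_fst q ⟨hWV hq.1, hq.2⟩
  qt_mem := fun q hq => by
    have hq' : q ∈ S₀.M := ⟨L.V_eq.subset (hWV hq.1), hq.2⟩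
    refine ⟨?_, (L.qt_mem q hq').2⟩
    rw [L.qt_fst q hq']
    exact hq.1
  qt_fst := fun q hq => L.qt_fst q ⟨L.V_eq.subset (hWV hq.1), hq.2⟩
  pt_qt := fun q hq => L.pt_qt q ⟨L.V_eq.subset (hWV hq.1), hq.2⟩
  qt_pt := fun q hq => L.qt_pt q ⟨hWV hq.1, hq.2⟩
  sec_pt := fun W s h => res0_isSection.2 ⟨L.sec_pt W s h.1, h.2⟩
  sec_qt := fun W s h => by
    obtain ⟨h1, h2⟩ := res0_isSection.1 h
    exact ⟨L.sec_qt W s h1, h2⟩

include L in
theorem nonempty_iff : (∃ q, q ∈ S.M) ↔ ∃ q, q ∈ S₀.M :=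
  ⟨fun ⟨q, hq⟩ => ⟨_, L.pt_mem q hq⟩, fun ⟨q, hq⟩ => ⟨_, L.qt_mem q hq⟩⟩

theorem pt_injOn : Set.InjOn L.pt S.M := fun q hq q' hq' h => by
  rw [← L.qt_pt q hq, h, L.qt_pt q' hq']

theorem pt_section {W : Set (Fin n → ℂ)} {s : (Fin n → ℂ) → ℕ} (h : S.IsSection W s)
    {z : Fin n → ℂ} (hz : z ∈ W) : L.pt (z, s z) = (z, (L.pt (z, s z)).2) :=
  Prod.ext (L.pt_fst _ (h.mem_M hz)) rfl

theorem qt_section {W : Set (Fin n → ℂ)} {s : (Fin n → ℂ) → ℂ} (h : S₀.IsSection W s)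
    {z : Fin n → ℂ} (hz : z ∈ W) : L.qt (z, s z) = (z, (L.qt (z, s z)).2) :=
  Prod.ext (L.qt_fst _ (h.mem_M hz)) rfl

/-! ### Functions -/

variable {X : (Fin n → ℂ) × ℂ → ℂ}

theorem holo_pt (hX : S₀.Holo X) : S.Holo (fun q => X (L.pt q)) := by
  intro W s h
  exact (hX W _ (L.sec_pt W s h)).congr fun z hz => congrArg X (L.pt_section h hz)

theorem CD_pt {k : ℕ} (hX : S₀.CD k X) : S.CD k (fun q => X (L.pt q)) := by
  intro W s h
  exact (hX W _ (L.sec_pt W s h)).congr fun z hz => congrArg X (L.pt_section h hz)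

theorem holo_qt {Y : (Fin n → ℂ) × ℕ → ℂ} (hY : S.Holo Y) : S₀.Holo (fun q => Y (L.qt q)) := by
  intro W s h
  exact (hY W _ (L.sec_qt W s h)).congr fun z hz => congrArg Y (L.qt_section h hz)

theorem CD_qt {k : ℕ} {Y : (Fin n → ℂ) × ℕ → ℂ} (hY : S.CD k Y) :
    S₀.CD k (fun q => Y (L.qt q)) := by
  intro W s h
  exact (hY W _ (L.sec_qt W s h)).congr fun z hz => congrArg Y (L.qt_section h hz)

theorem D_pt (j : Fin n) {q : (Fin n → ℂ) × ℕ} (hq : q ∈ S.M) :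
    S.D j (fun q => X (L.pt q)) q = S₀.D j X (L.pt q) := by
  obtain ⟨s, W, h, hqW, hs⟩ := P300.L2.Sheets.exists_section hq
  have e1 : q = (q.1, s q.1) := Prod.ext rfl hs.symm
  have e2 : L.pt q = (q.1, (L.pt (q.1, s q.1)).2) := by
    conv_lhs => rw [e1]
    exact L.pt_section h hqW
  rw [e2, S₀.D_apply (L.sec_pt W s h) hqW]
  conv_lhs => rw [e1]
  rw [P300.L2.Sheets.D_apply h hqW]
  refine P282.L2.dz_congr ?_
  filter_upwards [h.isOpen.mem_nhds hqW] with z hz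
  exact congrArg X (L.pt_section h hz)

theorem Db_pt (j : Fin n) {q : (Fin n → ℂ) × ℕ} (hq : q ∈ S.M) :
    S.Db j (fun q => X (L.pt q)) q = S₀.Db j X (L.pt q) := by
  obtain ⟨s, W, h, hqW, hs⟩ := P300.L2.Sheets.exists_section hq
  have e1 : q = (q.1, s q.1) := Prod.ext rfl hs.symm
  have e2 : L.pt q = (q.1, (L.pt (q.1, s q.1)).2) := by
    conv_lhs => rw [e1]
    exact L.pt_section h hqW
  rw [e2, S₀.Db_apply (L.sec_pt W s h) hqW]
  conv_lhs => rw [e1]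
  rw [P300.L2.Sheets.Db_apply h hqW]
  refine P282.L2.dzb_congr ?_
  filter_upwards [h.isOpen.mem_nhds hqW] with z hz
  exact congrArg X (L.pt_section h hz)

theorem levi_pt (Φ : (Fin n → ℂ) × ℂ → ℝ) (β : Fin n → ℂ) {q : (Fin n → ℂ) × ℕ}
    (hq : q ∈ S.M) : S.levi (fun q => Φ (L.pt q)) β q = S₀.levi Φ β (L.pt q) := by
  unfold P300.L2.Sheets.levi P282.L2.Sheets.levi
  congr 1
  refine Finset.sum_congr rfl fun j _ => Finset.sum_congr rfl fun k _ => ?_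
  congr 2
  rw [P300.L2.Sheets.D_congr (X := fun q => S₀.Db k (fun q => (Φ q : ℂ)) (L.pt q)) (fun q' hq' =>
    L.Db_pt (X := fun q => (Φ q : ℂ)) k hq') hq]
  exact L.D_pt (X := S₀.Db k fun q => (Φ q : ℂ)) j hq

theorem sum_fib {G : Type*} [AddCommMonoid G] (f : (Fin n → ℂ) × ℂ → G) {z : Fin n → ℂ}
    (hz : z ∈ S.V) : ∑ i ∈ S.fib z, f (L.pt (z, i)) = ∑ w ∈ S₀.fib z, f (z, w) := by
  classical
  have hM : ∀ i ∈ S.fib z, (z, i) ∈ S.M := fun i hi => ⟨hz, hi⟩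
  refine Finset.sum_bij (fun i _ => (L.pt (z, i)).2) ?_ ?_ ?_ ?_
  · intro i hi
    have h1 := (L.pt_mem (z, i) (hM i hi)).2
    rw [L.pt_fst _ (hM i hi)] at h1
    exact h1
  · intro i hi j hj hij
    have h1 : L.pt (z, i) = L.pt (z, j) :=
      Prod.ext ((L.pt_fst _ (hM i hi)).trans (L.pt_fst _ (hM j hj)).symm) hij
    exact congrArg Prod.snd (L.pt_injOn (hM i hi) (hM j hj) h1)
  · intro w hw
    have hq : (z, w) ∈ S₀.M := ⟨L.V_eq.subset hz, hw⟩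
    have h1 := L.qt_mem _ hq
    have h2 : L.qt (z, w) = (z, (L.qt (z, w)).2) := Prod.ext (L.qt_fst _ hq) rfl
    refine ⟨(L.qt (z, w)).2, ?_, ?_⟩
    · have := h1.2
      rw [L.qt_fst _ hq] at this
      exact this
    · rw [← h2, L.pt_qt _ hq]
  · intro i hi
    congr 1
    exact Prod.ext (L.pt_fst _ (hM i hi)) rfl

theorem fsum_pt {z : Fin n → ℂ} (hz : z ∈ S.V) :
    S.fsum (fun q => X (L.pt q)) z = S₀.fsum X z := L.sum_fib X hz

/-! ### Measures -/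

theorem holo_pt_snd : S.Holo (fun q => (L.pt q).2) :=
  L.holo_pt (X := fun q => q.2) P282.L2.Sheets.Holo.snd

theorem aemeasurable_pt : AEMeasurable L.pt S.μ := by
  have h1 : AEMeasurable (fun q => (L.pt q).2) S.μ :=
    (P300.L2.Sheets.aestronglyMeasurable_of_CD (L.holo_pt_snd.CD 0)).aemeasurable
  have h2 : AEMeasurable (fun q => (L.pt q).1) S.μ := by
    refine (measurable_fst.aemeasurable).congr ?_
    filter_upwards [P300.L2.Sheets.ae_mem_M (S := S)] with q hq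
    exact (L.pt_fst _ hq).symm
  exact h2.prodMk h1

theorem map_pt : S.μ.map L.pt = S₀.μ := by
  ext A hA
  rw [Measure.map_apply_of_aemeasurable L.aemeasurable_pt hA]
  have h1 : AEMeasurable (fun q => A.indicator (fun _ => (1 : ℝ≥0∞)) (L.pt q)) S.μ :=
    (measurable_one.indicator hA).comp_aemeasurable L.aemeasurable_pt
  have h2 := P300.L2.Sheets.lintegral_μ' h1
  have h3 := P282.L2.Sheets.lintegral_μ (S := S₀) (Ψ := A.indicator (fun _ => (1 : ℝ≥0∞)))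
    (measurable_one.indicator hA)
  have h4 : ∫⁻ q, A.indicator (fun _ => (1 : ℝ≥0∞)) (L.pt q) ∂S.μ = S.μ (L.pt ⁻¹' A) := by
    have e : (fun q => A.indicator (fun _ => (1 : ℝ≥0∞)) (L.pt q)) =
        (L.pt ⁻¹' A).indicator (fun _ => (1 : ℝ≥0∞)) := by
      funext q
      rfl
    rw [e, lintegral_indicator_const₀ (L.aemeasurable_pt.nullMeasurableSet_preimage hA), one_mul]
  have h5 : ∫⁻ q, A.indicator (fun _ => (1 : ℝ≥0∞)) q ∂S₀.μ = S₀.μ A := by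
    rw [lintegral_indicator_const hA, one_mul]
  rw [← h4, ← h5, h2, h3, L.V_eq]
  refine setLIntegral_congr_fun S₀.isOpen.measurableSet fun z hz => ?_
  exact L.sum_fib (fun q => A.indicator (fun _ => (1 : ℝ≥0∞)) q) (L.V_eq.symm.subset hz)

theorem lintegral_pt {f : (Fin n → ℂ) × ℂ → ℝ≥0∞} (hf : AEMeasurable f S₀.μ) :
    ∫⁻ q, f (L.pt q) ∂S.μ = ∫⁻ q, f q ∂S₀.μ := by
  rw [← L.map_pt] at hf
  have h := lintegral_map' hf L.aemeasurable_pt
  rw [L.map_pt] at h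
  exact h.symm

theorem aemeasurable_comp_pt {β : Type*} [MeasurableSpace β] {f : (Fin n → ℂ) × ℂ → β}
    (hf : AEMeasurable f S₀.μ) : AEMeasurable (fun q => f (L.pt q)) S.μ := by
  rw [← L.map_pt] at hf
  exact hf.comp_aemeasurable L.aemeasurable_pt

theorem ae_pt {P : (Fin n → ℂ) × ℂ → Prop} (h : ∀ᵐ q ∂S₀.μ, P q) :
    ∀ᵐ q ∂S.μ, P (L.pt q) := by
  rw [← L.map_pt] at h
  exact ae_of_ae_map L.aemeasurable_pt h

end Link

theorem exh_of {V : Set (Fin n → ℂ)} {p : (Fin n → ℂ) → ℝ} {C : ℝ} {k0 : ℕ}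
    (h : P282.L2.Exh V p C k0) : P300.L2.Exh V p C k0 :=
  ⟨h.smooth, h.norm_sq_le, h.compact, h.levi, h.grad⟩

end Vale.Agent.P299.H340
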