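import Vale.Agent.P299.H340.Model.Link
import Vale.Agent.P299.H340.Model.Dual
import Vale.Agent.P299.H340.Model.Ent

/-!
# P299, the model of the open variety: regular functions

`Mod n K`: a primitive element `y` of `K / ℂ(z₁, …, z_n)`, the cover
`S = {(z, w) | h(z) ≠ 0, w root of the minimal polynomial of y}` with labels in `ℕ` and the values
`A.val a q` of the regular elements `a ∈ K` (`A.IsReg a`, i.e. `a ∈ ℂ[z][y, 1/h]`) at the points.
-/

set_option autoImplicit false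
set_option linter.unusedSectionVars false

open MeasureTheory Filter Topology
open scoped ENNReal NNReal ComplexConjugate

namespace Vale.Agent.P299.H340

open Vale.Agent
open Vale.Agent.P282.L2 (Pol Prim pev IB IsPartials)

variable {n : ℕ} {K : Type} [Field K] [Algebra ℂ K] [Algebra (Pol n) K]

/-- The model: primitive element and cover. -/
structure Mod (n : ℕ) (K : Type) [Field K] [Algebra ℂ K] [Algebra (Pol n) K] where
  E : Prim n K
  N : ℕ
  S₀ : P282.L2.Sheets n N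
  S : P300.L2.Sheets n N
  link : Link S₀ S
  sh : E.IsSheets S₀

/-- Multiplying `h` by a nonzero polynomial. -/
noncomputable def primLoc (E : Prim n K) (g : Pol n) (hg : g ≠ 0) : Prim n K where
  y := E.y
  h := E.h * g
  integral := E.integral
  h0 := mul_ne_zero E.h0 hg
  gen := E.gen
  denom := fun b hb => by
    obtain ⟨f, hf⟩ := E.denom b hb
    refine ⟨Polynomial.C g * f, ?_⟩
    rw [map_mul, mul_right_comm, hf, map_mul, Polynomial.aeval_C, mul_comm]
  unram := by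
    obtain ⟨f, hf⟩ := E.unram
    refine ⟨Polynomial.C g * f, ?_⟩
    rw [map_mul, mul_assoc, hf, Polynomial.aeval_C, map_mul, mul_comm]

theorem IsReg.primLoc {E : Prim n K} {a : K} (ha : E.IsReg a) (g : Pol n) (hg : g ≠ 0) :
    (primLoc E g hg).IsReg a := by
  obtain ⟨f, k, hf⟩ := ha
  refine ⟨Polynomial.C (g ^ k) * f, k, ?_⟩
  show algebraMap (Pol n) K (E.h * g) ^ k * a = Polynomial.aeval E.y _
  rw [map_mul, mul_pow, mul_right_comm, hf, map_mul, Polynomial.aeval_C, mul_comm, map_pow]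

namespace Mod

variable (A : Mod n K)

/-- Regular elements. -/
def IsReg (a : K) : Prop := A.E.IsReg a

/-- The value of `a ∈ K` at a point of the cover. -/
noncomputable def val (a : K) (q : (Fin n → ℂ) × ℕ) : ℂ := A.E.ev a (A.link.pt q)

/-- The exhaustion function. -/
noncomputable def p : (Fin n → ℂ) → ℝ := P282.L2.ExhAux.ex A.E.h

theorem mem_V {z : Fin n → ℂ} : z ∈ A.S.V ↔ MvPolynomial.eval z A.E.h ≠ 0 := by
  rw [A.link.V_eq]
  exact A.sh.1 z

theorem p_nonneg (z : Fin n → ℂ) : 0 ≤ A.p z := P282.L2.ExhAux.ex_nonneg _ _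

theorem isOpen_zero (g : Pol n) : IsOpen {z : Fin n → ℂ | MvPolynomial.eval z g ≠ 0} :=
  isOpen_ne_fun (MvPolynomial.continuous_eval g) continuous_const

/-- Removing the zero set of a polynomial in `z`. -/
noncomputable def loc (g : Pol n) (hg : g ≠ 0) : Mod n K where
  E := primLoc A.E g hg
  N := A.N
  S₀ := res0 A.S₀ (A.S.V ∩ {z | MvPolynomial.eval z g ≠ 0}) (A.S.isOpen.inter (isOpen_zero g))
    (Set.inter_subset_left.trans A.link.V_eq.subset)
  S := A.S.res (A.S.V ∩ {z | MvPolynomial.eval z g ≠ 0}) (A.S.isOpen.inter (isOpen_zero g))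
    Set.inter_subset_left
  link := A.link.res _ _ _
  sh := by
    refine ⟨fun z => ?_, fun z w => ?_⟩
    · show z ∈ A.S.V ∩ {z | MvPolynomial.eval z g ≠ 0} ↔ MvPolynomial.eval z (A.E.h * g) ≠ 0
      rw [map_mul, mul_ne_zero_iff, Set.mem_inter_iff, A.mem_V]
      rfl
    · exact A.sh.2 z w

variable {A}

theorem mem_loc {g : Pol n} {hg : g ≠ 0} {q : (Fin n → ℂ) × ℕ} :
    q ∈ (A.loc g hg).S.M ↔ q ∈ A.S.M ∧ MvPolynomial.eval q.1 g ≠ 0 :=
  ⟨fun h => ⟨⟨h.1.1, h.2⟩, h.1.2⟩, fun h => ⟨⟨h.1.1, h.2⟩, h.1.2⟩⟩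

theorem IsReg.loc {a : K} (ha : A.IsReg a) (g : Pol n) (hg : g ≠ 0) : (A.loc g hg).IsReg a :=
  Vale.Agent.P299.H340.IsReg.primLoc ha g hg

/-! ### Values -/

section vals

variable [IsScalarTower ℂ (Pol n) K] [FaithfulSMul (Pol n) K] {a b : K} {q : (Fin n → ℂ) × ℕ}

theorem isReg_of_integral (ha : IsIntegral (Pol n) a) : A.IsReg a :=
  Prim.isReg_of_integral ha

theorem isReg_alg (f : Pol n) : A.IsReg (algebraMap (Pol n) K f) := Prim.isReg_alg f

theorem isReg_const (c : ℂ) : A.IsReg (algebraMap ℂ K c) := Prim.isReg_const c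

theorem isReg_one : A.IsReg 1 := Prim.isReg_one

theorem isReg_zero : A.IsReg 0 := Prim.isReg_zero

theorem isReg_y : A.IsReg A.E.y := Prim.isReg_y

theorem isReg_h_inv : A.IsReg (algebraMap (Pol n) K A.E.h)⁻¹ := Prim.isReg_h_inv

theorem IsReg.add (ha : A.IsReg a) (hb : A.IsReg b) : A.IsReg (a + b) := Prim.IsReg.add ha hb

theorem IsReg.mul (ha : A.IsReg a) (hb : A.IsReg b) : A.IsReg (a * b) := Prim.IsReg.mul ha hb

theorem IsReg.sub (ha : A.IsReg a) (hb : A.IsReg b) : A.IsReg (a - b) := Prim.IsReg.sub ha hb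

theorem IsReg.neg (ha : A.IsReg a) : A.IsReg (-a) := Prim.IsReg.neg ha

theorem IsReg.pow (ha : A.IsReg a) (k : ℕ) : A.IsReg (a ^ k) := Prim.IsReg.pow ha k

theorem IsReg.sum {ι : Type*} (s : Finset ι) {a : ι → K} (ha : ∀ i ∈ s, A.IsReg (a i)) :
    A.IsReg (∑ i ∈ s, a i) := Prim.IsReg.sum s ha

theorem IsReg.prod {ι : Type*} (s : Finset ι) {a : ι → K} (ha : ∀ i ∈ s, A.IsReg (a i)) :
    A.IsReg (∏ i ∈ s, a i) := Prim.IsReg.prod s ha

theorem IsReg.d {d : Fin n → Derivation ℂ K K} (hd : IsPartials d) (ha : A.IsReg a) (j : Fin n) :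
    A.IsReg (d j a) := Prim.IsReg.d hd ha j

/-- The subring of regular elements. -/
def regSub (A : Mod n K) : Subalgebra (Pol n) K where
  carrier := {a | A.IsReg a}
  mul_mem' := fun ha hb => IsReg.mul ha hb
  add_mem' := fun ha hb => IsReg.add ha hb
  algebraMap_mem' := fun f => isReg_alg f

theorem val_add (hq : q ∈ A.S.M) (ha : A.IsReg a) (hb : A.IsReg b) :
    A.val (a + b) q = A.val a q + A.val b q := Prim.ev_add A.sh (A.link.pt_mem q hq) ha hb

theorem val_mul (hq : q ∈ A.S.M) (ha : A.IsReg a) (hb : A.IsReg b) :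
    A.val (a * b) q = A.val a q * A.val b q := Prim.ev_mul A.sh (A.link.pt_mem q hq) ha hb

theorem val_sub (hq : q ∈ A.S.M) (ha : A.IsReg a) (hb : A.IsReg b) :
    A.val (a - b) q = A.val a q - A.val b q := Prim.ev_sub A.sh (A.link.pt_mem q hq) ha hb

theorem val_neg (hq : q ∈ A.S.M) (ha : A.IsReg a) : A.val (-a) q = -A.val a q :=
  Prim.ev_neg A.sh (A.link.pt_mem q hq) ha

theorem val_pow (hq : q ∈ A.S.M) (ha : A.IsReg a) (k : ℕ) : A.val (a ^ k) q = A.val a q ^ k :=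
  Prim.ev_pow A.sh (A.link.pt_mem q hq) ha k

theorem val_sum {ι : Type*} (hq : q ∈ A.S.M) (s : Finset ι) {a : ι → K}
    (ha : ∀ i ∈ s, A.IsReg (a i)) : A.val (∑ i ∈ s, a i) q = ∑ i ∈ s, A.val (a i) q :=
  Prim.ev_sum A.sh (A.link.pt_mem q hq) s ha

theorem val_prod {ι : Type*} (hq : q ∈ A.S.M) (s : Finset ι) {a : ι → K}
    (ha : ∀ i ∈ s, A.IsReg (a i)) : A.val (∏ i ∈ s, a i) q = ∏ i ∈ s, A.val (a i) q :=
  Prim.ev_prod A.sh (A.link.pt_mem q hq) s ha

theorem val_alg (hq : q ∈ A.S.M) (f : Pol n) :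
    A.val (algebraMap (Pol n) K f) q = MvPolynomial.eval q.1 f := by
  rw [val, Prim.ev_alg A.sh (A.link.pt_mem q hq), A.link.pt_fst q hq]

theorem val_const (hq : q ∈ A.S.M) (c : ℂ) : A.val (algebraMap ℂ K c) q = c :=
  Prim.ev_const A.sh (A.link.pt_mem q hq) c

theorem val_one (hq : q ∈ A.S.M) : A.val 1 q = 1 := Prim.ev_one A.sh (A.link.pt_mem q hq)

theorem val_zero (hq : q ∈ A.S.M) : A.val 0 q = 0 := Prim.ev_zero A.sh (A.link.pt_mem q hq)

theorem val_y (hq : q ∈ A.S.M) : A.val A.E.y q = (A.link.pt q).2 :=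
  Prim.ev_y A.sh (A.link.pt_mem q hq)

theorem val_aeval (hq : q ∈ A.S.M) (f : Polynomial (Pol n)) :
    A.val (Polynomial.aeval A.E.y f) q = pev f (A.link.pt q) :=
  Prim.ev_aeval A.sh (A.link.pt_mem q hq) f

theorem val_inv (hq : q ∈ A.S.M) (ha : A.IsReg a) (ha' : A.IsReg a⁻¹) :
    A.val a⁻¹ q = (A.val a q)⁻¹ := Prim.ev_inv A.sh (A.link.pt_mem q hq) ha ha'

theorem val_ne_zero_of_inv (hq : q ∈ A.S.M) (h : a ≠ 0) (ha : A.IsReg a) (ha' : A.IsReg a⁻¹) :
    A.val a q ≠ 0 := Prim.ev_ne_zero_of_inv A.sh (A.link.pt_mem q hq) h ha ha'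

theorem val_eq (hq : q ∈ A.S.M) {f : Polynomial (Pol n)} {k : ℕ}
    (hf : algebraMap (Pol n) K A.E.h ^ k * a = Polynomial.aeval A.E.y f) :
    A.val a q = pev f (A.link.pt q) / MvPolynomial.eval q.1 A.E.h ^ k := by
  rw [val, Prim.ev_eq A.sh (A.link.pt_mem q hq) hf, A.link.pt_fst q hq]

/-- Points are separated by the values of the regular elements. -/
theorem eq_of_val {q q' : (Fin n → ℂ) × ℕ} (hq : q ∈ A.S.M) (hq' : q' ∈ A.S.M)
    (h : ∀ a, A.IsReg a → A.val a q = A.val a q') : q = q' := by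
  refine A.link.pt_injOn hq hq' (Prod.ext ?_ ?_)
  · rw [A.link.pt_fst q hq, A.link.pt_fst q' hq']
    funext i
    have h1 := h _ (isReg_alg (MvPolynomial.X i))
    rw [val_alg hq, val_alg hq', MvPolynomial.eval_X, MvPolynomial.eval_X] at h1
    exact h1
  · have h1 := h _ isReg_y
    rw [val_y hq, val_y hq'] at h1
    exact h1

/-- The points of the cover are the homomorphisms of the ring of regular elements to `ℂ`. -/
theorem exists_point (φ : A.regSub →+* ℂ) (hφ : ∀ c : ℂ, φ (algebraMap (Pol n) A.regSub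
    (MvPolynomial.C c)) = c) : ∃ q ∈ A.S.M, ∀ a : A.regSub, φ a = A.val a q := by
  set z : Fin n → ℂ := fun i => φ (algebraMap (Pol n) A.regSub (MvPolynomial.X i)) with hz
  have h1 : ∀ f : Pol n, φ (algebraMap (Pol n) A.regSub f) = MvPolynomial.eval z f := by
    intro f
    have : (φ.comp (algebraMap (Pol n) A.regSub)) = MvPolynomial.eval z := by
      refine MvPolynomial.ringHom_ext (fun c => ?_) (fun i => ?_)
      · rw [RingHom.comp_apply, hφ, MvPolynomial.eval_C]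
      · rw [RingHom.comp_apply, MvPolynomial.eval_X]
    rw [← this]
    rfl
  set y : A.regSub := ⟨A.E.y, isReg_y⟩ with hy
  have h2 : ∀ f : Polynomial (Pol n), φ (Polynomial.aeval y f) = pev f (z, φ y) := by
    intro f
    rw [pev, Polynomial.aeval_def, Polynomial.hom_eval₂, Polynomial.eval_map]
    congr 1
    ext f
    · simp [hφ]
    · exact h1 _
  have h3 : MvPolynomial.eval z A.E.h ≠ 0 := by
    intro h0
    have h4 : algebraMap (Pol n) A.regSub A.E.h *
        (⟨(algebraMap (Pol n) K A.E.h)⁻¹, isReg_h_inv⟩ : A.regSub) = 1 := by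
      apply Subtype.ext
      show algebraMap (Pol n) K A.E.h * (algebraMap (Pol n) K A.E.h)⁻¹ = 1
      exact mul_inv_cancel₀ (Prim.ev_aux_h A.E)
    have h5 := congrArg φ h4
    rw [map_mul, h1, h0, zero_mul, map_one] at h5
    exact one_ne_zero h5.symm
  have hzV : z ∈ A.S₀.V := (A.sh.1 z).2 h3
  have hq0 : (z, φ y) ∈ A.S₀.M := by
    refine ⟨hzV, (A.sh.2 z (φ y)).2 ?_⟩
    have h4 := h2 (minpoly (Pol n) A.E.y)
    have h5 : Polynomial.aeval y (minpoly (Pol n) A.E.y) = 0 := by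
      apply Subtype.ext
      have h6 : ((Polynomial.aeval y (minpoly (Pol n) A.E.y) : A.regSub) : K) =
          Polynomial.aeval A.E.y (minpoly (Pol n) A.E.y) := by
        rw [← Subalgebra.coe_val, ← Polynomial.aeval_algHom_apply]
        rfl
      rw [h6, minpoly.aeval]
      rfl
    rw [h5, map_zero] at h4
    exact h4.symm
  refine ⟨A.link.qt (z, φ y), A.link.qt_mem _ hq0, fun a => ?_⟩
  obtain ⟨a, ha⟩ := a
  obtain ⟨f, k, hf⟩ := ha
  have hq := A.link.qt_mem _ hq0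
  have h6 : ((A.link.qt (z, φ y)).1 : Fin n → ℂ) = z := A.link.qt_fst _ hq0
  show φ ⟨a, _⟩ = A.val a _
  rw [val_eq hq hf, A.link.pt_qt _ hq0, h6, eq_div_iff (pow_ne_zero _ h3), ← h2, ← h1, ← map_pow,
    ← map_mul]
  congr 1
  apply Subtype.ext
  have h7 : ((Polynomial.aeval y f : A.regSub) : K) = Polynomial.aeval A.E.y f := by
    rw [← Subalgebra.coe_val, ← Polynomial.aeval_algHom_apply]
    rfl
  have h8 : (algebraMap (Pol n) A.regSub A.E.h : K) = algebraMap (Pol n) K A.E.h := rfl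
  rw [h7, MulMemClass.coe_mul, SubmonoidClass.coe_pow, h8, mul_comm]
  exact hf

/-- Localisation does not change the values. -/
theorem val_loc {g : Pol n} {hg : g ≠ 0} (ha : A.IsReg a) (hq : q ∈ (A.loc g hg).S.M) :
    (A.loc g hg).val a q = A.val a q := by
  obtain ⟨f, k, hf⟩ := ha
  have h1 := (mem_loc.1 hq).1
  have h2 := (mem_loc.1 hq).2
  have h3 : MvPolynomial.eval q.1 A.E.h ≠ 0 := A.mem_V.1 h1.1
  have hf' : algebraMap (Pol n) K (A.loc g hg).E.h ^ k * a =
      Polynomial.aeval (A.loc g hg).E.y (Polynomial.C (g ^ k) * f) := by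
    show algebraMap (Pol n) K (A.E.h * g) ^ k * a = Polynomial.aeval A.E.y _
    rw [map_mul, mul_pow, mul_right_comm, hf, map_mul, Polynomial.aeval_C, mul_comm, map_pow]
  rw [val_eq h1 hf, val_eq hq hf']
  show pev (Polynomial.C (g ^ k) * f) (A.link.pt q) / MvPolynomial.eval q.1 (A.E.h * g) ^ k = _
  have h4 : (A.link.pt q).1 = q.1 := A.link.pt_fst q h1
  rw [Prim.pev_mul, Prim.pev_C, h4, map_mul, mul_pow, map_pow]
  field_simp

/-- Regularity can be achieved by localising. -/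
theorem exists_loc_isReg (A : Mod n K) (a : K) : ∃ (g : Pol n) (hg : g ≠ 0),
    (A.loc g hg).IsReg a := by
  obtain ⟨f, c, hc, hf⟩ := A.E.gen a
  refine ⟨c, hc, Polynomial.C A.E.h * f, 1, ?_⟩
  show algebraMap (Pol n) K (A.E.h * c) ^ 1 * a = Polynomial.aeval A.E.y _
  rw [pow_one, map_mul, mul_assoc, hf, map_mul, Polynomial.aeval_C]

/-! ### Analytic properties -/

theorem holo_val (ha : A.IsReg a) : A.S.Holo (A.val a) := A.link.holo_pt (Prim.holo_ev A.sh ha)

theorem D_val {d : Fin n → Derivation ℂ K K} (hd : IsPartials d) (ha : A.IsReg a)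
    (hq : q ∈ A.S.M) (j : Fin n) : A.S.D j (A.val a) q = A.val (d j a) q := by
  have h1 := A.link.D_pt (X := A.E.ev a) j hq
  have h2 := Prim.D_ev A.sh hd ha (A.link.pt_mem q hq) j
  exact h1.trans h2

theorem eq_zero_of_val (ha : A.IsReg a) {W : Set (Fin n → ℂ)} (hW : IsOpen W)
    (hne : (W ∩ A.S.V).Nonempty) (h : ∀ q ∈ A.S.M, q.1 ∈ W → A.val a q = 0) : a = 0 := by
  refine Prim.eq_zero_of_ev A.sh ha hW (by rw [← A.link.V_eq]; exact hne) fun q hq hqW => ?_
  have h1 := h _ (A.link.qt_mem q hq) (by rw [A.link.qt_fst q hq]; exact hqW)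
  rw [val, A.link.pt_qt q hq] at h1
  exact h1

theorem nonempty_V (A : Mod n K) : A.S.V.Nonempty := by
  by_contra h
  rw [Set.not_nonempty_iff_eq_empty] at h
  have h1 : ∀ z : Fin n → ℂ, MvPolynomial.eval z A.E.h = 0 := by
    intro z
    by_contra h2
    have := A.mem_V.2 h2
    rw [h] at this
    exact this
  apply A.E.h0
  apply MvPolynomial.funext
  intro z
  rw [h1 z, map_zero]

theorem eq_zero_of_val' (ha : A.IsReg a) (h : ∀ q ∈ A.S.M, A.val a q = 0) : a = 0 :=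
  eq_zero_of_val ha isOpen_univ (by rw [Set.univ_inter]; exact A.nonempty_V)
    fun q hq _ => h q hq

theorem eq_of_val' (ha : A.IsReg a) (hb : A.IsReg b) (h : ∀ q ∈ A.S.M, A.val a q = A.val b q) :
    a = b := by
  refine sub_eq_zero.1 (eq_zero_of_val' (ha.sub hb) fun q hq => ?_)
  rw [val_sub hq ha hb, h q hq, sub_self]

theorem ae_val_ne_zero (ha : A.IsReg a) (h : a ≠ 0) : ∀ᵐ q ∂A.S.μ, A.val a q ≠ 0 := by
  have h1 : ∀ᵐ q ∂A.S₀.μ, A.E.ev a q ≠ 0 := Prim.ae_ev_ne_zero A.sh ha h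
  have h2 := A.link.ae_pt (P := fun q => A.E.ev a q ≠ 0) h1
  filter_upwards [h2] with q hq
  exact hq

theorem N_pos (A : Mod n K) : 0 < A.N := Prim.pos_of_isSheets A.sh

/-- The exhaustion function. -/
theorem exh (A : Mod n K) : ∃ (C : ℝ) (k0 : ℕ), P300.L2.Exh A.S.V A.p C k0 := by
  have hO := A.S.isOpen
  have hV : ∀ z ∈ A.S.V, MvPolynomial.eval z A.E.h ≠ 0 := fun z hz => A.mem_V.1 hz
  obtain ⟨C, k0, hg⟩ := P282.L2.ExhAux.grad_sum_ex hO hV
  refine ⟨C, k0, exh_of ⟨P282.L2.ExhAux.smooth_ex hV,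
    fun z _ => P282.L2.ExhAux.norm_sq_le_ex A.E.h z, fun c => ?_,
    fun z hz β => P282.L2.ExhAux.levi_ex hO hV hz β, hg⟩⟩
  have e1 : {z | z ∈ A.S.V ∧ A.p z ≤ c} =
      {z | MvPolynomial.eval z A.E.h ≠ 0 ∧ P282.L2.ExhAux.ex A.E.h z ≤ c} := by
    ext z
    simp only [Set.mem_ofPred_eq, A.mem_V]
    rfl
  rw [e1]
  exact P282.L2.ExhAux.compact_ex A.E.h c

/-- Regular functions have polynomial growth. -/
theorem growth (ha : A.IsReg a) : ∃ (c : ℝ) (k : ℕ), 0 ≤ c ∧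
    ∀ q ∈ A.S.M, ‖A.val a q‖ ≤ c * (1 + A.p q.1) ^ k := by
  obtain ⟨f, k, hf⟩ := ha
  have hint : IsIntegral (Pol n) (Polynomial.aeval A.E.y f) :=
    adjoin_le_integralClosure A.E.integral (Polynomial.aeval_mem_adjoin_singleton _ _)
  obtain ⟨C', k', hC', hb⟩ := Prim.ev_growth A.sh (⟨Polynomial.aeval A.E.y f, hint⟩ : IB n K)
  refine ⟨C' * 2 ^ k', k' + k, by positivity, fun q hq => ?_⟩
  have h0 := A.p_nonneg q.1
  have hq' := A.link.pt_mem q hq
  have e : A.val a q = A.E.ev a (A.link.pt q) := rfl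
  rw [e, Prim.ev_eq A.sh hq' hf, div_eq_mul_inv, norm_mul, ← inv_pow, norm_pow,
    ← Prim.ev_aeval A.sh hq' f, A.link.pt_fst q hq]
  have h1 := hb _ hq'
  rw [A.link.pt_fst q hq] at h1
  have h2 : ‖(MvPolynomial.eval q.1 A.E.h)⁻¹‖ ≤ 1 + A.p q.1 := P282.L2.ExhAux.inv_le_ex A.E.h q.1
  have h3 : 1 + ‖q.1‖ ≤ 2 * (1 + A.p q.1) := P282.L2.ExhAux.one_add_norm_le A.E.h q.1
  calc _ ≤ (C' * (1 + ‖q.1‖) ^ k') * (1 + A.p q.1) ^ k := by
        refine mul_le_mul h1 (pow_le_pow_left₀ (norm_nonneg _) h2 k) (by positivity)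
          (by positivity)
    _ ≤ (C' * (2 * (1 + A.p q.1)) ^ k') * (1 + A.p q.1) ^ k := by
        gcongr
    _ = _ := by
        rw [mul_pow, pow_add]
        ring

end vals

end Mod

theorem nonempty_tot {N : ℕ} {E : Prim n K} {S : P282.L2.Sheets n N} (hS : E.IsSheets S)
    [IsScalarTower ℂ (Pol n) K] [FaithfulSMul (Pol n) K] : Nonempty (Tot S) := by
  have hV : ∃ z, z ∈ S.V := by
    by_contra h
    push Not at h
    apply E.h0
    apply MvPolynomial.funext
    intro z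
    by_contra h2
    rw [map_zero] at h2
    exact h z ((hS.1 z).2 h2)
  obtain ⟨z, hz⟩ := hV
  obtain ⟨W, s, hW, hzW, -, -, hf⟩ := S.loc z hz
  have hN := Prim.pos_of_isSheets hS
  exact ⟨⟨(z, s ⟨0, hN⟩ z), hz, by
    show s _ z ∈ S.fib z
    rw [(hf z hzW).2]
    simp⟩⟩

/-- The model attached to a primitive element and its cover. -/
noncomputable def Mod.mk' {N : ℕ} (E : Prim n K) (S : P282.L2.Sheets n N) (hS : E.IsSheets S)
    [IsScalarTower ℂ (Pol n) K] [FaithfulSMul (Pol n) K] : Mod n K :=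
  haveI := nonempty_tot hS
  ⟨E, N, S, lab S, labLink S, hS⟩

/-- Existence of models. -/
theorem exists_mod (n : ℕ) (K : Type) [Field K] [Algebra ℂ K] [Algebra (Pol n) K]
    [IsScalarTower ℂ (Pol n) K] [FaithfulSMul (Pol n) K] [Algebra (FractionRing (Pol n)) K]
    [IsScalarTower (Pol n) (FractionRing (Pol n)) K] [FiniteDimensional (FractionRing (Pol n)) K] :
    Nonempty (Mod n K) := by
  obtain ⟨E, -⟩ := P282.L2.exists_prim (n := n) (0 : K)
  obtain ⟨S, hS⟩ := Prim.exists_sheets E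
  exact ⟨Mod.mk' E S hS⟩

/-- Existence of models in which finitely many elements are regular. -/
theorem Mod.exists_loc_finset [IsScalarTower ℂ (Pol n) K] [FaithfulSMul (Pol n) K] (A : Mod n K)
    (s : Finset K) : ∃ (g : Pol n) (hg : g ≠ 0), ∀ a ∈ s, (A.loc g hg).IsReg a := by
  classical
  have h1 : ∀ a : K, ∃ (f : Polynomial (Pol n)) (c : Pol n), c ≠ 0 ∧
      algebraMap (Pol n) K c * a = Polynomial.aeval A.E.y f := A.E.gen
  choose f c hc hf using h1
  refine ⟨∏ a ∈ s, c a, Finset.prod_ne_zero_iff.2 fun a _ => hc a, fun a ha => ?_⟩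
  refine ⟨Polynomial.C (A.E.h * ∏ b ∈ s.erase a, c b) * f a, 1, ?_⟩
  show algebraMap (Pol n) K (A.E.h * ∏ b ∈ s, c b) ^ 1 * a = Polynomial.aeval A.E.y _
  rw [← Finset.mul_prod_erase s c ha, pow_one, map_mul (Polynomial.aeval A.E.y),
    Polynomial.aeval_C, ← hf a]
  simp only [map_mul]
  ring

end Vale.Agent.P299.H340
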